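import Vale.Agent.P298.H471.Path2

/-!
# The smooth integral model as an instance of `OModel`
-/

set_option linter.unusedSectionVars false

noncomputable section

namespace Vale.Agent.P298.H471

open Finset

variable {I : Type*} [Fintype I] [DecidableEq I]

/-- `D . E_j` for an integral matrix. -/
def ipZ (M : I → I → ℤ) (D : I → ℤ) (j : I) : ℤ := ∑ l, M j l * D l

/-- `χ(D) = -(D² + K.D)/2`. -/
def chiZ (M : I → I → ℤ) (K : I → ℤ) (D : I → ℤ) : ℝ :=
  -((∑ i, D i * (ipZ M D i + ipZ M K i) : ℤ) : ℝ) / 2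

lemma ipR_cast (M : I → I → ℤ) (D : I → ℤ) (j : I) :
    ipR (fun i j => (M i j : ℝ)) (toR D) j = ((ipZ M D j : ℤ) : ℝ) := by
  simp [ipR, toR, ipZ]

lemma ipZ_add (M : I → I → ℤ) (D D' : I → ℤ) (j : I) :
    ipZ M (D + D') j = ipZ M D j + ipZ M D' j := by
  simp only [ipZ, Pi.add_apply, mul_add, Finset.sum_add_distrib]

lemma ipZ_ee (M : I → I → ℤ) (i j : I) : ipZ M (ee j) i = M i j := by
  simp [ipZ, ee]

lemma sum_mul_ipZ_comm {M : I → I → ℤ} (hs : ∀ i j, M i j = M j i) (D D' : I → ℤ) :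
    ∑ i, D i * ipZ M D' i = ∑ i, D' i * ipZ M D i := by
  simp only [ipZ, Finset.mul_sum]
  rw [Finset.sum_comm]
  refine Finset.sum_congr rfl fun i _ => Finset.sum_congr rfl fun j _ => ?_
  rw [hs j i]; ring

/-- `χ(D + D') = χ(D) + χ(D') - D.D'`. -/
lemma chiZ_add {M : I → I → ℤ} (hs : ∀ i j, M i j = M j i) (K D D' : I → ℤ) :
    chiZ M K (D + D') = chiZ M K D + chiZ M K D' - ((∑ i, D' i * ipZ M D i : ℤ) : ℝ) := by
  have h := sum_mul_ipZ_comm hs D D'
  have h2 : (∑ i, (D + D') i * (ipZ M (D + D') i + ipZ M K i) : ℤ)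
      = (∑ i, D i * (ipZ M D i + ipZ M K i)) + (∑ i, D' i * (ipZ M D' i + ipZ M K i))
        + 2 * ∑ i, D' i * ipZ M D i := by
    have h3 : ∀ i, (D + D') i * (ipZ M (D + D') i + ipZ M K i)
      = D i * (ipZ M D i + ipZ M K i) + D' i * (ipZ M D' i + ipZ M K i)
        + (D i * ipZ M D' i + D' i * ipZ M D i) := by
      intro i; rw [ipZ_add, Pi.add_apply]; ring
    simp only [h3, Finset.sum_add_distrib]
    rw [h]; ring
  simp only [chiZ]
  rw [h2]
  push_cast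
  ring

lemma chiZ_ee {M : I → I → ℤ} {K g : I → ℤ} (adj : ∀ j, ipZ M K j + M j j = 2 * g j - 2)
    (j : I) : chiZ M K (ee j) = 1 - g j := by
  have h1 : ∀ i, ee j i * (ipZ M (ee j) i + ipZ M K i)
      = if i = j then (M j j + ipZ M K j) else 0 := by
    intro i
    by_cases h : i = j
    · subst h; simp [ipZ_ee, ee]
    · simp [ee, h]
  simp only [chiZ, h1, Finset.sum_ite_eq', Finset.mem_univ, if_true]
  have h2 := adj j
  have h3 : M j j + ipZ M K j = 2 * g j - 2 := by omega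
  rw [h3]; push_cast; ring

/-- the smooth model. -/
theorem smooth_omodel {M : I → I → ℤ} {K g : I → ℤ} (symm : ∀ i j, M i j = M j i)
    (off : ∀ i j, i ≠ j → 0 ≤ M i j)
    (conn : ∀ S : Finset I, S.Nonempty → S ≠ univ → ∃ i ∈ S, ∃ j, j ∉ S ∧ 0 < M i j)
    (negdef : ∀ x : I → ℝ, x ≠ 0 → ∑ i, ∑ j, (M i j : ℝ) * x i * x j < 0)
    (adj : ∀ j, ipZ M K j + M j j = 2 * g j - 2) :
    OModel (fun i j => (M i j : ℝ)) K g 0 (fun D j => - ipZ M D j) (chiZ M K) where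
  symm i j := by rw [symm i j]
  off i j h := by exact_mod_cast off i j h
  conn S h1 h2 := by
    obtain ⟨i, hi, j, hj, hij⟩ := conn S h1 h2
    exact ⟨i, hi, j, hj, by exact_mod_cast hij⟩
  negdef := negdef
  adj j := by
    rw [ipR_cast]
    have := adj j
    have h2 : ((ipZ M K j : ℤ) : ℝ) + (M j j : ℝ) = 2 * g j - 2 := by exact_mod_cast this
    simp only [Pi.zero_apply, add_zero]
    exact h2
  pos D j := by
    rw [ipR_cast]; push_cast; simp
  pot D j := by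
    rw [chiZ_add symm, chiZ_ee adj]
    have : ∑ i, ee j i * ipZ M D i = ipZ M D j := by simp [ee]
    rw [this]; push_cast; ring

/-- the smooth anchor: `2 c(D+A) - 2 c(D) ≥ -2 A.(D+A) - (K.A - A²)`. -/
theorem smooth_anchor {M : I → I → ℤ} {K : I → ℤ} (symm : ∀ i j, M i j = M j i)
    {c : (I → ℤ) → ℤ} {A : I → ℤ} (hA : ∀ j, ipZ M A j ≤ 0) (hpos : ∀ l, 0 < A l)
    (h : ∀ D, -(2 * ∑ i, (D + A) i * ipZ M A i) - (∑ i, K i * ipZ M A i - ∑ i, A i * ipZ M A i)
      ≤ 2 * (c (D + A) - c D)) :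
    Anchor (fun i j => (M i j : ℝ)) (chiZ M K) c A := by
  refine ⟨fun j => by rw [ipR_cast]; exact_mod_cast hA j, hpos, fun D => ?_⟩
  have h1 := h D
  have h2 : (∑ i, (D + A) i * ipZ M A i) = ∑ i, D i * ipZ M A i + ∑ i, A i * ipZ M A i := by
    rw [← Finset.sum_add_distrib]
    exact Finset.sum_congr rfl fun i _ => by rw [Pi.add_apply]; ring
  have h3 : chiZ M K A = -((∑ i, A i * ipZ M A i + ∑ i, A i * ipZ M K i : ℤ) : ℝ) / 2 := by
    simp only [chiZ, mul_add, Finset.sum_add_distrib]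
  have h4 := sum_mul_ipZ_comm symm D A
  have h5 := sum_mul_ipZ_comm symm K A
  unfold uu
  rw [chiZ_add symm, h3, ← h4, ← h5]
  rw [h2] at h1
  have h6 : ((-(2 * (∑ i, D i * ipZ M A i + ∑ i, A i * ipZ M A i))
      - (∑ i, K i * ipZ M A i - ∑ i, A i * ipZ M A i) : ℤ) : ℝ) ≤ ((2 * (c (D + A) - c D) : ℤ) : ℝ) := by
    exact_mod_cast h1
  push_cast at h6 ⊢
  linarith

/-- in the smooth model every multiple is Cartier. -/
theorem smooth_cart {M : I → I → ℤ} (off : ∀ i j, i ≠ j → 0 ≤ M i j) {Z : I → ℤ} (n : ℕ)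
    (D : I → ℤ) (j : I) (hD : ∀ l, D l ≤ n * Z l) (hj : D j = n * Z j) :
    -(n * ipR (fun i j => (M i j : ℝ)) (toR Z) j) ≤ ((-ipZ M D j : ℤ) : ℝ) := by
  rw [ipR_cast]
  have h1 : ipZ M D j ≤ n * ipZ M Z j := by
    simp only [ipZ, Finset.mul_sum]
    apply Finset.sum_le_sum
    intro l _
    by_cases hl : l = j
    · subst hl; rw [hj]; apply le_of_eq; ring
    · have h2 := mul_le_mul_of_nonneg_left (hD l) (off j l (Ne.symm hl))
      calc M j l * D l ≤ M j l * (n * Z l) := h2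
        _ = n * (M j l * Z l) := by ring
  have h2 : ((ipZ M D j : ℤ) : ℝ) ≤ ((n * ipZ M Z j : ℤ) : ℝ) := by exact_mod_cast h1
  push_cast at h2 ⊢
  linarith

end Vale.Agent.P298.H471
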