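import Vale.Agent.P298.H955.CM2
import Vale.Agent.P298.H707.Glue6
import Vale.Agent.P298.H766.Irr

/-!
# The interface between the charts of the surface and the algebraic model

`RV f` is the (formal) local ring of the surface `f = 0`, `cl f h` the class of a germ `h`;
`Link M C` relates the charts `M.ch i l` (helper707) and the chart model `C` (helper955).
-/

set_option linter.unusedSectionVars false

noncomputable section

namespace Vale.Agent.P298.H471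

open Finset Filter Topology Polynomial Vale.Agent.P298 Vale.Agent.P298.H707

/-- the formal local ring of the surface. -/
abbrev RV (f : (Fin 3 → ℂ) → ℂ) : Type := MvPowerSeries (Fin 3) ℂ ⧸ Ideal.span {H766.ser f}

/-- the class of a germ. -/
def cl (f h : (Fin 3 → ℂ) → ℂ) : RV f := Ideal.Quotient.mk _ (H766.ser h)

variable {f : (Fin 3 → ℂ) → ℂ} {κ : Type*} {Θ : κ → ℂ × ℂ → ℂ × ℂ} {n : ℕ}
    {P : ℂ × ℂ → ℂ[X]} {v : ℂ × (ℂ × ℂ) → ℂ} {K : κ → ℕ} {ζ : κ → Fin n → ℂ × ℂ → ℂ}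
    {σ ρ : κ → Equiv.Perm (Fin n)}

/-- **the link between charts and places.** -/
structure Link (M : Model f Θ n P v K ζ σ ρ) {𝒦 : Type*} [Field 𝒦] [Algebra ℂ 𝒦]
    [Algebra (RV f) 𝒦] [IsScalarTower ℂ (RV f) 𝒦] {I : Type*} [Fintype I] [DecidableEq I]
    (C : H955.CModel (RV f) 𝒦 I) where
  /-- the place of a chart. -/
  q : κ → Fin n → C.Q
  q_surj : ∀ p : C.Q, ∃ i l, q i l = p
  q_fin : ∀ p : C.Q, {t : κ × Fin n | q t.1 t.2 = p}.Finite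
  /-- the ramification along the first axis. -/
  ka : κ → Fin n → ℕ
  ka_pos : ∀ i l, 0 < ka i l
  /-- orders of functions in the charts. -/
  ord : ∀ h, Hol h → cl f h ≠ 0 → ∀ i l, ∃ (α β δ : ℕ) (u : ℂ × ℂ → ℂ) (g : ℂ → ℂ),
    (α : ℤ) = ka i l * C.vR (q i l).1 (cl f h) ∧
    (β : ℤ) = C.e2 (q i l) * C.y (fun j => C.vR j (cl f h)) (q i l) ∧
    ((β + δ : ℕ) : ℤ) = C.lam (q i l) (algebraMap (RV f) 𝒦 (cl f h)) ∧
    AnalyticAt ℂ u 0 ∧ AnalyticAt ℂ g 0 ∧ g 0 ≠ 0 ∧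
    (∀ᶠ p in 𝓝 (0 : ℂ × ℂ), h (M.ch i l p) = p.1 ^ α * p.2 ^ β * u p) ∧
    (∀ᶠ b in 𝓝 (0 : ℂ), u (0, b) = b ^ δ * g b)
  zero : ∀ h, Hol h → cl f h = 0 → ∀ i l, ∀ᶠ p in 𝓝 (0 : ℂ × ℂ), h (M.ch i l p) = 0
  /-- orders of the Jacobian of `Θ`. -/
  a : κ → ℕ
  b : κ → ℕ
  jac : ∀ i, MonU (jacP (Θ i)) (a i) (b i)
  /-- orders of `∂₃ f`. -/
  c : κ → Fin n → ℕ
  d : κ → Fin n → ℕ
  pd2 : ∀ i l, MonU (fun p => pd 2 f (M.ch i l p)) (c i l) (d i l)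
  /-- the orders of the form `dx dy / ∂₃ f`. -/
  canA : ∀ i l, (K i * (a i + 1) : ℤ) - c i l = ka i l * (C.K (q i l).1 + 1)
  canB : ∀ i l, (K i * (b i + 1) : ℤ) - d i l =
    C.e2 (q i l) * ((C.nb (q i l)).elim 1 (fun p => C.K p.1 + 1))
  /-- the maps `Θ` are injective off the axes. -/
  inj : ∀ i, ∃ r : ℝ, 0 < r ∧ ∀ s s' : ℂ × ℂ, ‖s‖ < r → ‖s'‖ < r → s.1 ≠ 0 → s.2 ≠ 0 →
    s'.1 ≠ 0 → s'.2 ≠ 0 → Θ i s = Θ i s' → s = s'
  /-- the first axis is exceptional. -/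
  exc : ∀ i, ∀ᶠ t : ℂ in 𝓝 0, Θ i (0, t) = 0
  /-- the anchor inequality (plane curve `x = 0`). -/
  anchor : ∀ G : I → ℤ, ∑ j, C.nodeData.rC j * (2 * G j + C.nodeData.A j + C.nodeData.K j) ≤
    2 * (C.c (G + C.nodeData.A) - C.c G)

end Vale.Agent.P298.H471
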