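import Vale.Agent.P298.H701.Srf3
import Vale.Agent.P298.H471.Link

/-!
# Instances for the function field of the surface
-/

set_option linter.style.haveILetI false

noncomputable section

namespace Vale.Agent.P298.H471

open Filter Topology Polynomial Vale.Agent.P298 Vale.Agent.P298.H707 Vale.Agent.P298.H701
open Vale.Agent.P298.H766 (irreducible_ser)

variable {f : (Fin 3 → ℂ) → ℂ} {n : ℕ} {P : ℂ × ℂ → ℂ[X]} {v : ℂ × (ℂ × ℂ) → ℂ}

instance charZero_LL2 : CharZero LL2 :=
  charZero_of_injective_algebraMap (algebraMap ℂ LL2).injective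

section
variable [hirr : Fact (Irreducible (PL n P))]

instance charZero_KF : CharZero (KF n P) :=
  charZero_of_injective_algebraMap (algebraMap LL2 (KF n P)).injective

instance tower_KF : IsScalarTower ℂ LL2 (KF n P) := inferInstance

/-- the surface ring in the function field. -/
@[reducible] def algRK (hf : Hol f) (W : WD f n P v) : Algebra (RV f) (KF n P) :=
  (H701.rk hf W).toAlgebra

theorem algRK_apply (hf : Hol f) (W : WD f n P v) (h : RV f) :
    letI := algRK hf W
    algebraMap (RV f) (KF n P) h = H701.rk hf W h := rfl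

theorem towRK (hf : Hol f) (W : WD f n P v) :
    letI := algRK hf W
    IsScalarTower ℂ (RV f) (KF n P) := by
  letI := algRK hf W
  exact IsScalarTower.of_algebraMap_eq (R := ℂ) (S := RV f) (A := KF n P)
    fun c => (rk_C hf W c).symm

theorem finDim_KF (W : WD f n P v) : FiniteDimensional LL2 (KF n P) := finite_KF W

theorem sep_KF (W : WD f n P v) : Algebra.IsSeparable LL2 (KF n P) := by
  haveI := finite_KF W
  infer_instance

end

theorem fact_irr (hf : Hol f) (f0 : f 0 = 0) {μ : ℕ} (hμ : Milnor f μ) (W : WD f n P v) :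
    Fact (Irreducible (PL n P)) :=
  ⟨irreduciblePL hf W (irreducible_ser hf f0 hμ le_rfl)⟩

end Vale.Agent.P298.H471
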