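import Vale.Agent.P298.H471.Path2
import Vale.Agent.P298.H312.Lin

/-!
# Base point freeness of `b(n Z)` for large `n` (row E1-BPF)

`R` = the ring `O_V`, `ne h` means `h ≠ 0`, `v j h` the order of `h` along `E_j`,
`P j` the places of `E_j`, `nb j p = some l` if `p` is a node of `E_j` with `E_l`,
`NV j p h` : the non exceptional part of `div h` does not pass through `p`.
-/

set_option linter.unusedSectionVars false

noncomputable section

namespace Vale.Agent.P298.H471

open Finset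

variable {I : Type*} [Fintype I] [DecidableEq I]
variable {M : I → I → ℝ} {K g : I → ℤ} {δ : I → ℝ} {deg : (I → ℤ) → I → ℤ} {X : (I → ℤ) → ℝ}
  {c : (I → ℤ) → ℤ}

/-- the order of `h` as an integral cycle. -/
def vc {R : Type*} (v : I → R → ℤ) (h : R) : I → ℤ := fun l => v l h

/-- what we use about functions. -/
structure BModel (M : I → I → ℝ) (g : I → ℤ) (deg : (I → ℤ) → I → ℤ) (c : (I → ℤ) → ℤ)
    (Z : I → ℤ) {R : Type*} (ne : R → Prop) (v : I → R → ℤ) {P : I → Type*}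
    (nb : ∀ j, P j → Option I) (NV : ∀ j, P j → R → Prop) : Prop where
  step0 : ∀ (D : I → ℤ) (j : I), 1 ≤ c (D + ee j) - c D →
    ∃ h, ne h ∧ (∀ l, D l ≤ v l h) ∧ v j h = D j
  anti : ∀ h, ne h → ∀ j, ipR M (toR (vc v h)) j ≤ 0
  zero_of : ∀ h, ne h → ∀ j, ipR M (toR (vc v h)) j = 0 → ∀ p, NV j p h
  node : ∀ (j : I) (p : P j) (l : I), nb j p = some l → 0 < M j l ∧
    ∃ p' : P l, ∀ h, ne h → NV l p' h → NV j p h
  surj : ∀ (n : ℕ) (D : I → ℤ) (j : I) (p : P j), D j = n * Z j →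
    (∀ l, nb j p = some l → D l = n * Z l) → 2 * g j ≤ deg D j →
    c (D + ee j) - c D = deg D j + 1 - g j →
    ∃ h, ne h ∧ (∀ l, D l ≤ v l h) ∧ v j h = D j ∧ (∀ l, nb j p = some l → v l h = D l) ∧
      NV j p h

lemma excMat (hM : OModel M K g δ deg X) : H312.ExcMat (K := ℝ) (Matrix.of M) where
  symm i j := hM.symm i j
  off i j hij := hM.off i j hij
  neg x hx := by
    have h := hM.negdef x hx
    have h2 : ∑ i, x i * (Matrix.of M).mulVec x i = ∑ i, ∑ j, M i j * x i * x j := by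
      refine Finset.sum_congr rfl fun i _ => ?_
      rw [H312.ExcMat.mulVec_apply', Finset.mul_sum]
      refine Finset.sum_congr rfl fun j _ => ?_
      simp only [Matrix.of_apply]; ring
    rw [h2]; exact h

lemma mulVec_ipR (M : I → I → ℝ) (x : I → ℝ) (i : I) : (Matrix.of M).mulVec x i = ipR M x i := rfl

/-- negativity with respect to a subset. -/
lemma nonneg_on (hM : OModel M K g δ deg X) (S : Finset I) (x : I → ℝ)
    (h1 : ∀ i ∈ S, ipR M x i ≤ 0) (h2 : ∀ i ∉ S, 0 ≤ x i) : ∀ i, 0 ≤ x i :=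
  (excMat hM).nonneg_of S x (fun i hi => by rw [mulVec_ipR]; exact h1 i hi) h2

/-- a nonzero Green function of a subset. -/
lemma exists_green (hM : OModel M K g δ deg X) (Γ : Finset I) :
    ∃ G : I → ℝ, (∀ l, l ∉ Γ → G l = 0) ∧ (∀ l ∈ Γ, ipR M G l = -1) ∧ (∀ l ∈ Γ, 0 < G l) := by
  obtain ⟨G, hG0, hG1⟩ := (excMat hM).exists_dirichlet Γ (fun _ => -1) 0
  have hG1' : ∀ l ∈ Γ, ipR M G l = -1 := fun l hl => by rw [← mulVec_ipR]; exact hG1 l hl
  have hnn : ∀ l, 0 ≤ G l := by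
    apply nonneg_on hM Γ G
    · intro i hi; rw [hG1' i hi]; norm_num
    · intro i hi; rw [hG0 i hi]; simp
  refine ⟨G, fun l hl => by rw [hG0 l hl]; rfl, hG1', fun l hl => ?_⟩
  refine lt_of_le_of_ne (hnn l) fun h => ?_
  have h3 : 0 ≤ ipR M G l := by
    apply Finset.sum_nonneg
    intro k _
    by_cases hk : l = k
    · subst hk; rw [← h]; simp
    · exact mul_nonneg (hM.off l k hk) (hnn k)
  rw [hG1' l hl] at h3
  norm_num at h3

/-- `S` is closed in the null locus: neighbours of `S` which are null lie in `S`. -/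
def ClosedIn (M : I → I → ℝ) (N S : Finset I) : Prop := ∀ i ∈ S, ∀ j ∈ N, 0 < M i j → j ∈ S

/-- the connected component of `j` in `N`. -/
lemma exists_comp (hsymm : ∀ i j, M i j = M j i) (N : Finset I) (j : I) (hj : j ∈ N) :
    ∃ Γ : Finset I, j ∈ Γ ∧ Γ ⊆ N ∧ ClosedIn M N Γ ∧
      ∀ S : Finset I, S ⊆ Γ → S.Nonempty → (∀ i ∈ S, ∀ l ∈ Γ, 0 < M i l → l ∈ S) → S = Γ := by
  classical
  obtain ⟨Γ, hΓ, hmin⟩ := Finset.exists_min_image
    ((N.powerset).filter fun S => j ∈ S ∧ ClosedIn M N S) (fun S => S.card)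
    ⟨N, by simp only [Finset.mem_filter, Finset.mem_powerset]
           exact ⟨Finset.Subset.refl _, hj, fun i _ l hl _ => hl⟩⟩
  simp only [Finset.mem_filter, Finset.mem_powerset] at hΓ hmin
  obtain ⟨hΓN, hjΓ, hcl⟩ := hΓ
  refine ⟨Γ, hjΓ, hΓN, hcl, fun S hS hSn hScl => ?_⟩
  by_cases hjS : j ∈ S
  · -- S is closed in N
    have h1 : ClosedIn M N S := fun i hi l hl hil => hScl i hi l (hcl i (hS hi) l hl hil) hil
    have h2 := hmin S ⟨hS.trans hΓN, hjS, h1⟩
    exact Finset.eq_of_subset_of_card_le hS h2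
  · -- the complement is closed
    exfalso
    have h1 : ClosedIn M N (Γ \ S) := by
      intro i hi l hl hil
      rw [Finset.mem_sdiff] at hi ⊢
      refine ⟨hcl i hi.1 l hl hil, fun hlS => hi.2 ?_⟩
      exact hScl l hlS i hi.1 (by rw [hsymm]; exact hil)
    have h2 := hmin (Γ \ S) ⟨Finset.sdiff_subset.trans hΓN, Finset.mem_sdiff.2 ⟨hjΓ, hjS⟩, h1⟩
    have h3 := Finset.card_sdiff_add_card_eq_card hS
    have h4 := Finset.card_pos.2 hSn
    omega

variable {z : I → ℝ} {m : ℕ} {Z : I → ℤ} {R : Type*} {ne : R → Prop} {v : I → R → ℤ}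
  {P : I → Type*} {nb : ∀ j, P j → Option I} {NV : ∀ j, P j → R → Prop}

/-- negativity: an element which has order `≥ n Z` on the positive components has order
`≥ n Z` everywhere. -/
lemma ge_of_pos (hM : OModel M K g δ deg X) (hZ : ZData M K deg z m Z)
    (hB : BModel M g deg c Z ne v nb NV) {n : ℕ} {h : R} (hne : ne h)
    (hv : ∀ l, ipR M z l < 0 → (n : ℤ) * Z l ≤ v l h) : ∀ l, (n : ℤ) * Z l ≤ v l h := by
  have h1 := nonneg_on hM (univ.filter fun l => ipR M z l = 0)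
    (fun l => (v l h : ℝ) - n * Z l) ?_ ?_
  · intro l
    have h2 := h1 l
    have h3 : ((n * Z l : ℤ) : ℝ) ≤ (v l h : ℝ) := by push_cast; linarith
    exact_mod_cast h3
  · intro i hi
    rw [Finset.mem_filter] at hi
    have h2 := hB.anti h hne i
    have h3 : ipR M (fun l => (v l h : ℝ) - n * Z l) i
        = ipR M (toR (vc v h)) i - n * ipR M (toR Z) i := by
      simp only [ipR, toR, vc, Finset.mul_sum]
      rw [← Finset.sum_sub_distrib]
      exact Finset.sum_congr rfl fun l _ => by ring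
    rw [h3, ipR_toR_Z hZ, hi.2]
    linarith
  · intro i hi
    have h2 : ipR M z i < 0 := by
      rcases lt_or_eq_of_le (hZ.anti i) with h | h
      · exact h
      · exact absurd (Finset.mem_filter.2 ⟨Finset.mem_univ i, h⟩) hi
    have h3 := hv i h2
    have h4 : ((n * Z i : ℤ) : ℝ) ≤ (v i h : ℝ) := by exact_mod_cast h3
    push_cast at h4
    linarith

/-- propagation on a null component. -/
lemma propagate (hM : OModel M K g δ deg X) (hZ : ZData M K deg z m Z)
    (hB : BModel M g deg c Z ne v nb NV) {n : ℕ} {h : R} (hne : ne h)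
    (hv : ∀ l, (n : ℤ) * Z l ≤ v l h) {j : I} (hj0 : ipR M z j = 0) (hj : v j h = n * Z j) :
    ipR M (toR (vc v h)) j = 0 ∧ ∀ l, 0 < M j l → v l h = n * Z l := by
  have h1 := hB.anti h hne j
  have h3 : ∑ l, M j l * ((v l h : ℝ) - n * Z l)
      = ipR M (toR (vc v h)) j - n * ipR M (toR Z) j := by
    simp only [ipR, toR, vc, Finset.mul_sum]
    rw [← Finset.sum_sub_distrib]
    exact Finset.sum_congr rfl fun l _ => by ring
  rw [ipR_toR_Z hZ, hj0, mul_zero, mul_zero, sub_zero] at h3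
  have h4 : ∀ l, 0 ≤ M j l * ((v l h : ℝ) - n * Z l) := by
    intro l
    by_cases hl : j = l
    · subst hl
      rw [hj]; push_cast; simp
    · apply mul_nonneg (hM.off j l hl)
      have h5 : ((n * Z l : ℤ) : ℝ) ≤ (v l h : ℝ) := by exact_mod_cast hv l
      push_cast at h5
      linarith
  have h5 : ipR M (toR (vc v h)) j = 0 :=
    le_antisymm h1 (by rw [← h3]; exact Finset.sum_nonneg fun l _ => h4 l)
  refine ⟨h5, fun l hl => ?_⟩
  rw [h5] at h3
  have h6 := (Finset.sum_eq_zero_iff_of_nonneg fun l _ => h4 l).1 h3 l (Finset.mem_univ l)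
  rcases mul_eq_zero.1 h6 with h7 | h7
  · rw [h7] at hl; exact absurd hl (lt_irrefl _)
  · have h8 : (v l h : ℝ) = ((n * Z l : ℤ) : ℝ) := by push_cast; linarith
    exact_mod_cast h8

/-- **good element at a place**: `div h = n Z` near `p`. -/
def Good (Z : I → ℤ) (v : I → R → ℤ) (nb : ∀ j, P j → Option I) (NV : ∀ j, P j → R → Prop)
    (n : ℕ) (j : I) (p : P j) (h : R) : Prop :=
  v j h = n * Z j ∧ (∀ l, nb j p = some l → v l h = n * Z l) ∧ NV j p h

/-- the null components. -/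
lemma null_part (hM : OModel M K g δ deg X) (hg : ∀ j, 0 ≤ g j) (h1 : StepBound g deg c)
    {A : I → ℤ} (h2 : Anchor M X c A) (hZ : ZData M K deg z m Z)
    (hB : BModel M g deg c Z ne v nb NV) (j : I) (hj : ipR M z j = 0) :
    ∃ n₀ : ℕ, ∀ n : ℕ, n₀ ≤ n → ∃ h, ne h ∧ (∀ l, (n : ℤ) * Z l ≤ v l h) ∧
      v j h = n * Z j ∧ (∀ l, 0 < M j l → v l h = n * Z l) ∧ (∀ p, NV j p h) := by
  obtain ⟨Γ, hjΓ, hΓN, hcl, hconn⟩ := exists_comp hM.symm
    (univ.filter fun l => ipR M z l = 0) j (Finset.mem_filter.2 ⟨Finset.mem_univ j, hj⟩)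
  have hΓ0 : ∀ l ∈ Γ, ipR M z l = 0 := fun l hl => (Finset.mem_filter.1 (hΓN hl)).2
  obtain ⟨G, hG0, hG1, hGpos⟩ := exists_green hM Γ
  have hGΓ : ∀ l, ipR M z l = 0 → ipR M G l ≤ 0 := by
    intro l hl
    by_cases hlΓ : l ∈ Γ
    · rw [hG1 l hlΓ]; norm_num
    · apply le_of_eq
      apply Finset.sum_eq_zero
      intro k _
      by_cases hkΓ : k ∈ Γ
      · have : M l k = 0 := by
          by_contra hne
          have h3 : l ≠ k := by rintro rfl; exact hlΓ hkΓ
          have h4 : 0 < M k l := by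
            rw [hM.symm]
            exact lt_of_le_of_ne (hM.off l k h3) (Ne.symm hne)
          exact hlΓ (hcl k hkΓ l (Finset.mem_filter.2 ⟨Finset.mem_univ l, hl⟩) h4)
        rw [this, zero_mul]
      · rw [hG0 k hkΓ, mul_zero]
  obtain ⟨n₀, hn₀⟩ := exact_null hM hg h1 h2 hZ ⟨j, hjΓ⟩ hΓ0 hG0 hGpos hGΓ
  refine ⟨n₀, fun n hn => ?_⟩
  obtain ⟨j₀, hj₀, D, hD1, hD2, hD3, _, _, _, hstep⟩ := hn₀ n hn
  obtain ⟨h, hne, hvD, hvj⟩ := hB.step0 D j₀ hstep
  have hge : ∀ l, (n : ℤ) * Z l ≤ v l h :=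
    ge_of_pos hM hZ hB hne fun l hl => by rw [← hD1 l hl]; exact hvD l
  -- propagation
  set S : Finset I := Γ.filter fun l => v l h = n * Z l with hS
  have hSΓ : S = Γ := by
    apply hconn S (Finset.filter_subset _ _) ⟨j₀, Finset.mem_filter.2 ⟨hj₀, by rw [hvj, hD3]⟩⟩
    intro i hi l hl hil
    have h3 := Finset.mem_filter.1 hi
    have h4 := (propagate hM hZ hB hne hge (hΓ0 i h3.1) h3.2).2 l hil
    exact Finset.mem_filter.2 ⟨hl, h4⟩
  have hjS : v j h = n * Z j := by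
    have : j ∈ S := by rw [hSΓ]; exact hjΓ
    exact (Finset.mem_filter.1 this).2
  obtain ⟨h5, h6⟩ := propagate hM hZ hB hne hge hj hjS
  exact ⟨h, hne, hge, hjS, h6, hB.zero_of h hne j h5⟩

/-- **E1-BPF.** -/
theorem bpf (hM : OModel M K g δ deg X) (hg : ∀ j, 0 ≤ g j) (h1 : StepBound g deg c)
    {A : I → ℤ} (h2 : Anchor M X c A) (hZ : ZData M K deg z m Z)
    (hB : BModel M g deg c Z ne v nb NV) :
    ∃ n₀ : ℕ, ∀ n : ℕ, n₀ ≤ n → ∀ (j : I) (p : P j), ∃ h, ne h ∧
      (∀ l, (n : ℤ) * Z l ≤ v l h) ∧ Good Z v nb NV n j p h := by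
  classical
  -- null components
  have hnull : ∀ j : I, ∃ n₀ : ℕ, ipR M z j = 0 → ∀ n : ℕ, n₀ ≤ n → ∃ h, ne h ∧
      (∀ l, (n : ℤ) * Z l ≤ v l h) ∧ v j h = n * Z j ∧ (∀ l, 0 < M j l → v l h = n * Z l) ∧
      (∀ p, NV j p h) := by
    intro j
    by_cases hj : ipR M z j = 0
    · obtain ⟨n₀, hn₀⟩ := null_part hM hg h1 h2 hZ hB j hj
      exact ⟨n₀, fun _ => hn₀⟩
    · exact ⟨0, fun h => absurd h hj⟩
  choose N₀ hN₀ using hnull
  -- positive components
  have hpos : ∀ j : I, ∃ n₀ : ℕ, ipR M z j < 0 → ∀ n : ℕ, n₀ ≤ n →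
      (2 : ℝ) ≤ ((n : ℝ) * m - 1) * (-ipR M z j) := by
    intro j
    by_cases hj : ipR M z j < 0
    · obtain ⟨B, hB⟩ := exists_nat_ge (2 / (-ipR M z j))
      refine ⟨B + 1, fun _ n hn => ?_⟩
      rw [div_le_iff₀ (by linarith)] at hB
      have hm1 : (1 : ℝ) ≤ m := by exact_mod_cast hZ.hm
      have h3 : (B : ℝ) + 1 ≤ n := by exact_mod_cast hn
      have h4 : (n : ℝ) ≤ n * m := by nlinarith
      have h5 : (B : ℝ) ≤ (n : ℝ) * m - 1 := by linarith
      have h6 : (B : ℝ) * (-ipR M z j) ≤ ((n : ℝ) * m - 1) * (-ipR M z j) :=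
        mul_le_mul_of_nonneg_right h5 (by linarith)
      linarith
    · exact ⟨0, fun h => absurd h hj⟩
  choose B₀ hB₀ using hpos
  refine ⟨2 + (∑ l, N₀ l) + ∑ l, B₀ l, fun n hn j p => ?_⟩
  have hnN : ∀ l, N₀ l ≤ n := fun l => by
    have := Finset.single_le_sum (f := N₀) (fun k _ => Nat.zero_le _) (Finset.mem_univ l)
    omega
  have hnB : ∀ l, B₀ l ≤ n := fun l => by
    have := Finset.single_le_sum (f := B₀) (fun k _ => Nat.zero_le _) (Finset.mem_univ l)
    omega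
  have hn2 : 2 ≤ n * m := by
    have h3 : n * 1 ≤ n * m := Nat.mul_le_mul_left n hZ.hm
    omega
  rcases lt_or_eq_of_le (hZ.anti j) with hj | hj
  · -- positive component
    by_cases hnode : ∃ l, nb j p = some l ∧ ipR M z l = 0
    · obtain ⟨l, hl, hl0⟩ := hnode
      obtain ⟨hMjl, p', hp'⟩ := hB.node j p l hl
      obtain ⟨h, hne, hge, hvl, hnbr, hNV⟩ := hN₀ l hl0 n (hnN l)
      refine ⟨h, hne, hge, hnbr j (by rw [hM.symm]; exact hMjl), fun l' hl' => ?_,
        hp' h hne (hNV p')⟩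
      rw [hl] at hl'
      rw [← Option.some.inj hl']
      exact hvl
    · have hnode' : ∀ l, nb j p = some l → ipR M z l < 0 := by
        intro l hl
        rcases lt_or_eq_of_le (hZ.anti l) with h | h
        · exact h
        · exact absurd ⟨l, hl, h⟩ hnode
      obtain ⟨D, hD1, hD2, _, hdeg, hex⟩ := exact_pos hM h1 h2 hZ hn2 hj
      have hdeg2 : 2 * g j ≤ deg D j := by
        have h3 := hB₀ j hj n (hnB j)
        have h4 : (2 * g j : ℝ) ≤ deg D j := by nlinarith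
        exact_mod_cast h4
      obtain ⟨h, hne, hvD, hvj, hvl, hNV⟩ := hB.surj n D j p (hD1 j hj)
        (fun l hl => hD1 l (hnode' l hl)) hdeg2 hex
      refine ⟨h, hne, ge_of_pos hM hZ hB hne fun l hl => by rw [← hD1 l hl]; exact hvD l,
        by rw [hvj, hD1 j hj], fun l hl => ?_, hNV⟩
      rw [hvl l hl, hD1 l (hnode' l hl)]
  · obtain ⟨h, hne, hge, hvj, hnbr, hNV⟩ := hN₀ j hj n (hnN j)
    exact ⟨h, hne, hge, hvj, fun l hl => hnbr l (hB.node j p l hl).1, hNV p⟩

/-! ### two general elements -/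

/-- linear algebra: if every place has an element of `W` not killed by the functional of the
place, there are two elements of `W` without common zero, provided every element which does
not vanish at finitely many given places has only finitely many zeros. -/
theorem exists_pair_fun {k V : Type*} [Field k] [Infinite k] [AddCommGroup V] [Module k V]
    {Q : Type*} (ev : Q → V →ₗ[k] k) (hev : ∀ q, ∃ x, ev q x ≠ 0) (F : Finset Q)
    (hfin : ∀ x : V, (∀ q ∈ F, ev q x ≠ 0) → {q | ev q x = 0}.Finite) :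
    ∃ e e' : V, (∀ q ∈ F, ev q e ≠ 0) ∧ (∀ q ∈ F, ev q e' ≠ 0) ∧
      ∀ q, ev q e ≠ 0 ∨ ev q e' ≠ 0 := by
  have key : ∀ s : Finset Q, ∃ x : V, ∀ q ∈ s, ev q x ≠ 0 := by
    intro s
    by_contra hcon
    push Not at hcon
    have h1 := Subspace.biUnion_ne_univ_of_top_notMem (k := k) (E := V)
      (s := s.image fun q => LinearMap.ker (ev q)) ?_
    · apply h1
      rw [Set.eq_univ_iff_forall]
      intro x
      obtain ⟨q, hq, hx⟩ := hcon x
      rw [Set.mem_iUnion₂]
      exact ⟨LinearMap.ker (ev q), Finset.mem_image_of_mem _ hq, by simpa using hx⟩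
    · intro h2
      rw [Finset.mem_image] at h2
      obtain ⟨q, _, hq⟩ := h2
      obtain ⟨x, hx⟩ := hev q
      rw [LinearMap.ker_eq_top] at hq
      exact hx (by rw [hq]; rfl)
  obtain ⟨e, he⟩ := key F
  classical
  obtain ⟨e', he'⟩ := key (F ∪ (hfin e he).toFinset)
  refine ⟨e, e', he, fun q hq => he' q (Finset.mem_union_left _ hq), fun q => ?_⟩
  by_cases h : ev q e = 0
  · exact Or.inr (he' q (Finset.mem_union_right _ (by simpa using h)))
  · exact Or.inl h

end Vale.Agent.P298.H471
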