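import Vale.Agent.P298.H471.Path

/-!
# Connectedness and negative definiteness of the exceptional set

* `negdef_of_strict` : a strictly antinef positive cycle forces negative definiteness;
* `conn_of` : the graph is connected, by the exactness of computation sequences and the
  comparability `IZ` of the orders along two components.
-/

set_option linter.unusedSectionVars false

noncomputable section

namespace Vale.Agent.P298.H471

open Finset

variable {I : Type*} [Fintype I] [DecidableEq I]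

/-- negative definiteness from a strictly antinef positive cycle. -/
theorem negdef_of_strict {M : I → I → ℝ} (symm : ∀ i j, M i j = M j i)
    (off : ∀ i j, i ≠ j → 0 ≤ M i j) {A : I → ℝ} (hA : ∀ j, ipR M A j < 0) (hpos : ∀ l, 0 < A l) :
    ∀ x : I → ℝ, x ≠ 0 → ∑ i, ∑ j, M i j * x i * x j < 0 := by
  intro x hx
  set y : I → ℝ := fun i => x i / A i with hy
  have hxy : ∀ i, x i = A i * y i := fun i => by
    simp only [hy]; field_simp [(hpos i).ne']
  have h1 : ∀ i j, M i j * x i * x j = (1 / 2) * (A i * y i ^ 2 * (M i j * A j))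
      + (1 / 2) * (A j * y j ^ 2 * (M j i * A i))
      - (1 / 2) * (M i j * A i * A j * (y i - y j) ^ 2) := by
    intro i j
    rw [hxy i, hxy j, symm j i]; ring
  have h2 : ∑ i, ∑ j, M i j * x i * x j = ∑ i, A i * y i ^ 2 * ipR M A i
      - (1 / 2) * ∑ i, ∑ j, M i j * A i * A j * (y i - y j) ^ 2 := by
    simp only [h1, Finset.sum_sub_distrib, Finset.sum_add_distrib]
    have h3 : ∑ i, ∑ j, (1 / 2 : ℝ) * (A j * y j ^ 2 * (M j i * A i))
        = ∑ i, ∑ j, (1 / 2 : ℝ) * (A i * y i ^ 2 * (M i j * A j)) := Finset.sum_comm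
    have h4 : ∑ i, ∑ j, (1 / 2 : ℝ) * (A i * y i ^ 2 * (M i j * A j))
        = (1 / 2) * ∑ i, A i * y i ^ 2 * ipR M A i := by
      simp only [ipR, Finset.mul_sum]
    have h5 : ∑ i, ∑ j, (1 / 2 : ℝ) * (M i j * A i * A j * (y i - y j) ^ 2)
        = (1 / 2) * ∑ i, ∑ j, M i j * A i * A j * (y i - y j) ^ 2 := by
      simp only [Finset.mul_sum]
    rw [h3, h4, h5]; ring
  have h6 : 0 ≤ ∑ i, ∑ j, M i j * A i * A j * (y i - y j) ^ 2 := by
    refine Finset.sum_nonneg fun i _ => Finset.sum_nonneg fun j _ => ?_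
    by_cases hij : i = j
    · subst hij; simp
    · have := off i j hij
      have := (hpos i).le
      have := (hpos j).le
      positivity
  obtain ⟨i₀, hi₀⟩ : ∃ i, y i ≠ 0 := by
    by_contra h
    push Not at h
    exact hx (funext fun i => by rw [hxy i, h i, mul_zero]; rfl)
  have h7 : ∑ i, A i * y i ^ 2 * ipR M A i < 0 := by
    have h8 : ∀ i ∈ (univ : Finset I), A i * y i ^ 2 * ipR M A i ≤ 0 := fun i _ =>
      mul_nonpos_of_nonneg_of_nonpos (mul_nonneg (hpos i).le (sq_nonneg _)) (hA i).le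
    have h9 : A i₀ * y i₀ ^ 2 * ipR M A i₀ < 0 :=
      mul_neg_of_pos_of_neg (mul_pos (hpos i₀) (by positivity)) (hA i₀)
    calc ∑ i, A i * y i ^ 2 * ipR M A i < ∑ _i : I, (0 : ℝ) :=
          Finset.sum_lt_sum h8 ⟨i₀, Finset.mem_univ _, h9⟩
      _ = 0 := by simp
  linarith

variable {M : I → I → ℝ} {K g : I → ℤ} {δ : I → ℝ} {deg : (I → ℤ) → I → ℤ} {X : (I → ℤ) → ℝ}
  {c : (I → ℤ) → ℤ}

/-- **connectedness.** -/
theorem conn_of (hM : OModel0 M K g δ deg X) (hg : ∀ j, 0 ≤ g j) (h1 : StepBound g deg c)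
    {A : I → ℤ} (h2 : Anchor M X c A) {R : Type*} {ne : R → Prop} {v : I → R → ℤ}
    (step0 : ∀ (D : I → ℤ) (j : I), 1 ≤ c (D + ee j) - c D →
      ∃ h, ne h ∧ (∀ l, D l ≤ v l h) ∧ v j h = D j)
    {A' : I → ℤ} (hA' : ∀ j, ipR M (toR A') j < 0) (hpos : ∀ l, 0 < A' l)
    (IZ : ∀ (l j : I) (a : ℤ), ∃ N : ℤ, ∀ h, ne h → N ≤ v l h → a ≤ v j h) :
    ∀ S : Finset I, S.Nonempty → S ≠ univ → ∃ i ∈ S, ∃ j, j ∉ S ∧ 0 < M i j := by
  intro S hS hSu
  by_contra hcon
  push Not at hcon
  have hz : ∀ i ∈ S, ∀ j, j ∉ S → M i j = 0 := by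
    intro i hi j hj
    refine le_antisymm (hcon i hi j hj) (hM.off i j ?_)
    rintro rfl; exact hj hi
  have hz' : ∀ i, i ∉ S → ∀ j ∈ S, M i j = 0 := fun i hi j hj => by
    rw [hM.symm]; exact hz j hj i hi
  obtain ⟨l, hl⟩ := hS
  obtain ⟨j, hj⟩ : ∃ j, j ∉ S := by
    by_contra h
    push Not at h
    exact hSu (Finset.eq_univ_iff_forall.2 h)
  -- the multiple `k`
  obtain ⟨k, hk⟩ : ∃ k : ℕ, 2 ≤ (k : ℝ) * (-ipR M (toR A') j) := by
    obtain ⟨k, hk⟩ := exists_nat_ge (2 / (-ipR M (toR A') j))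
    refine ⟨k, ?_⟩
    rwa [div_le_iff₀ (by linarith [hA' j])] at hk
  have hk0 : 0 < k := by
    rcases Nat.eq_zero_or_pos k with h | h
    · rw [h] at hk; norm_num at hk
    · exact h
  obtain ⟨N₀, hN₀⟩ := IZ l j (k * A' j - K j)
  -- the number `N`
  obtain ⟨N, hN1, hN⟩ : ∃ N : ℕ, 1 ≤ N ∧ N₀ ≤ N * (k * A' l) - 1 - K l := by
    refine ⟨(N₀ + 1 + K l).toNat + 1, by omega, ?_⟩
    have h3 : (1 : ℤ) ≤ k * A' l := by
      have := hpos l
      have h4 : (1 : ℤ) ≤ k := by exact_mod_cast hk0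
      nlinarith
    have h4 : N₀ + 1 + K l ≤ ((N₀ + 1 + K l).toNat : ℤ) := Int.self_le_toNat _
    have h5 : (0 : ℤ) ≤ ((N₀ + 1 + K l).toNat : ℤ) := by positivity
    push_cast
    nlinarith
  set w : I → ℤ := fun i => if i ∈ S then N * (k * A' i) else k * A' i with hw
  set W : I → ℝ := toR w with hW
  have hWfl : ∀ i, W i = ⌊W i⌋ := fun i => by simp [hW, toR]
  have hip : ∀ i, ipR M W i = (if i ∈ S then (N : ℝ) * k else k) * ipR M (toR A') i := by
    intro i
    simp only [ipR, Finset.mul_sum]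
    refine Finset.sum_congr rfl fun a _ => ?_
    by_cases hi : i ∈ S
    · by_cases ha : a ∈ S
      · simp only [hW, toR, hw, if_pos hi, if_pos ha]; push_cast; ring
      · rw [hz i hi a ha]; ring
    · by_cases ha : a ∈ S
      · rw [hz' i hi a ha]; ring
      · simp only [hW, toR, hw, if_neg hi, if_neg ha]; push_cast; ring
  have hkR : (0 : ℝ) < k := by exact_mod_cast hk0
  have hNR : (0 : ℝ) < N := by exact_mod_cast hN1
  have hstr : ∀ i, ipR M W i < 0 := by
    intro i
    rw [hip]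
    apply mul_neg_of_pos_of_neg _ (hA' i)
    split_ifs
    · positivity
    · exact hkR
  have hWpos : ∀ i, 0 < W i := by
    intro i
    have h3 : 0 < w i := by
      have h4 := hpos i
      have h5 : (0 : ℤ) < k := by exact_mod_cast hk0
      have h6 : (0 : ℤ) < N := by exact_mod_cast hN1
      simp only [hw]
      split_ifs
      · positivity
      · positivity
    simp only [hW, toR]
    exact_mod_cast h3
  have hNC : NC M W := ⟨hWpos, fun i => (hstr i).le, Or.inr hstr⟩
  have hr : IsRank M W (fun _ => 0) :=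
    ⟨fun i _ _ => Or.inl (hstr i), fun i _ h => absurd h (lt_irrefl _)⟩
  obtain ⟨_, he⟩ := exact_step0 hM h1 h2 hNC hr (adm_empty W _) (hWfl j)
    (Finset.notMem_empty j) (fun _ _ _ => le_refl _)
  have hD : ∀ i, pre K W ∅ i = w i - 1 - K i := by
    intro i
    simp only [pre, Finset.notMem_empty, if_false, add_zero, hW, toR, Int.ceil_intCast]
  -- lower bound of the degree
  have hdeg : 2 * g j ≤ deg (pre K W ∅) j := by
    have h3 := deg_ge hM (W := W) (D := pre K W ∅) (j := j) (by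
      rw [hD]; simp only [hW, toR]; push_cast; ring)
    have h4 : (0 : ℝ) ≤ ∑ a ∈ univ.erase j, M j a * (W a - K a - pre K W ∅ a) := by
      refine Finset.sum_nonneg fun a ha => mul_nonneg
        (hM.off j a (Finset.ne_of_mem_erase ha).symm) ?_
      rw [hD]; simp only [hW, toR]; push_cast; linarith
    have h5 : ipR M W j ≤ -2 := by
      rw [hip, if_neg hj]; linarith
    have h6 : (2 * g j : ℝ) ≤ deg (pre K W ∅) j := by linarith
    exact_mod_cast h6
  have h7 : 1 ≤ c (pre K W ∅ + ee j) - c (pre K W ∅) := by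
    rw [he]; have := hg j; omega
  obtain ⟨h, hne, hv, hvj⟩ := step0 _ j h7
  have h8 := hv l
  rw [hD, show w l = N * (k * A' l) by simp only [hw, if_pos hl]] at h8
  have h9 := hN₀ h hne (hN.trans h8)
  rw [hvj, hD, show w j = k * A' j by simp only [hw, if_neg hj]] at h9
  omega

/-- from `OModel0` to `OModel`. -/
theorem omodel_of (hM : OModel0 M K g δ deg X) (hg : ∀ j, 0 ≤ g j) (h1 : StepBound g deg c)
    {A : I → ℤ} (h2 : Anchor M X c A) {R : Type*} {ne : R → Prop} {v : I → R → ℤ}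
    (step0 : ∀ (D : I → ℤ) (j : I), 1 ≤ c (D + ee j) - c D →
      ∃ h, ne h ∧ (∀ l, D l ≤ v l h) ∧ v j h = D j)
    {A' : I → ℤ} (hA' : ∀ j, ipR M (toR A') j < 0) (hpos : ∀ l, 0 < A' l)
    (IZ : ∀ (l j : I) (a : ℤ), ∃ N : ℤ, ∀ h, ne h → N ≤ v l h → a ≤ v j h) :
    OModel M K g δ deg X where
  toOModel0 := hM
  conn := conn_of hM hg h1 h2 step0 hA' hpos IZ
  negdef := negdef_of_strict hM.symm hM.off hA' fun l => by
    have := hpos l
    simp only [toR]
    exact_mod_cast this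

end Vale.Agent.P298.H471
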