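import Vale.Agent.P298.H272.Model
import Vale.Agent.P298.H471.Conn

/-!
# Strictly antinef cycles from functions with a nonconstant ratio of leading coefficients
-/

set_option linter.unusedSectionVars false

noncomputable section

namespace Vale.Agent.P298.H471

open Finset Vale.Agent.P298.FF Vale.Agent.P298.H272

variable {R : Type*} [CommRing R] [Algebra ℂ R] {I : Type*} [Fintype I] [DecidableEq I]

/-- the order of `h` as an integral cycle. -/
def vcy (v : I → R → ℤ) (h : R) : I → ℤ := fun l => v l h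

/-- the orders of an `LcModel`. -/
def IsOrders (G : LcModel R I) (v : I → R → ℤ) : Prop :=
  ∀ h : R, h ≠ 0 → ∀ i d, h ∈ G.fil i d ↔ d ≤ v i h

variable {G : LcModel R I} {v : I → R → ℤ} {M : I → I → ℝ}

lemma IsOrders.mem (hv : IsOrders G v) {h : R} (hh : h ≠ 0) (i : I) : h ∈ G.fil i (v i h) :=
  (hv h hh i _).2 le_rfl

lemma IsOrders.not_mem (hv : IsOrders G v) {h : R} (hh : h ≠ 0) (i : I) :
    h ∉ G.fil i (v i h + 1) := fun h1 => by
  have := (hv h hh i _).1 h1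
  omega

lemma IsOrders.nonneg (hv : IsOrders G v) {h : R} (hh : h ≠ 0) (i : I) : 0 ≤ v i h :=
  (hv h hh i 0).1 (by rw [G.zero]; exact Submodule.mem_top)

lemma IsOrders.eq_of (hv : IsOrders G v) {h : R} (hh : h ≠ 0) {i : I} {d : ℤ}
    (h1 : h ∈ G.fil i d) (h2 : h ∉ G.fil i (d + 1)) : v i h = d := by
  have h3 := (hv h hh i d).1 h1
  have h4 : ¬ (d + 1 ≤ v i h) := fun h5 => h2 ((hv h hh i (d + 1)).2 h5)
  omega

/-- NET. -/
theorem anti_of (hv : IsOrders G v) (hdeg : ∀ D j, (G.deg D j : ℝ) ≤ -ipR M (toR D) j) {h : R}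
    (hh : h ≠ 0) (j : I) : ipR M (toR (vcy v h)) j ≤ 0 := by
  have h1 : (0 : ℤ) ≤ G.deg (vcy v h) j :=
    G.deg_nonneg_of_mem (D := vcy v h) (j := j) (g := h)
      (G.mem_b.2 fun i => hv.mem hh i) (hv.not_mem hh j)
  have h2 := hdeg (vcy v h) j
  have h3 : (0 : ℝ) ≤ (G.deg (vcy v h) j : ℝ) := by exact_mod_cast h1
  linarith

/-- two sections of degree zero with exact orders are proportional. -/
theorem smul_of_deg_zero {D : I → ℤ} {j : I} (h : G.deg D j ≤ 0) {g g' : R} (hg : g ∈ G.b D)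
    (hg0 : g ∉ G.fil j (D j + 1)) (hg' : g' ∈ G.b D) :
    ∃ a : ℂ, G.lc j (D j) g' = a • G.lc j (D j) g := by
  obtain ⟨P⟩ := nonempty_Plk ℂ (G.κ j)
  set z := G.lc j (D j) g with hz
  have hz0 : z ≠ 0 := by
    rw [hz, Ne, G.lc_eq_zero j (G.mem_b.1 hg j)]
    exact hg0
  have hzL : z ∈ LL ℂ (G.Δ D j) := G.lc_mem D j (G.mem_b.1 hg)
  have hwL : G.lc j (D j) g' ∈ LL ℂ (G.Δ D j) := G.lc_mem D j (G.mem_b.1 hg')
  have hzP : ord P z = -G.Δ D j P := G.exact_of_deg_zero h hg hg0 P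
  obtain ⟨a, ha⟩ := exists_sub_mem (P := P) (n := -G.Δ D j P) hz0 hzP (mem_LL_iff.1 hwL P)
  refine ⟨a, ?_⟩
  by_contra hne
  have h1 : G.lc j (D j) g' - a • z ≠ 0 := sub_ne_zero.2 hne
  have h2 : G.lc j (D j) g' - a • z ∈ LL ℂ (G.Δ D j) :=
    Submodule.sub_mem _ hwL (Submodule.smul_mem _ a hzL)
  have h3 := ord_eq_of_dg_zero (D := G.Δ D j) h h1 ((mem_LL.1 h2).resolve_left h1) P
  rcases ha with ha | ha
  · exact h1 ha
  · omega

/-- the good linear combinations. -/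
lemma good_comb (hv : IsOrders G v) {h₁ h₂ : R} (h1 : h₁ ≠ 0) (h2 : h₂ ≠ 0) :
    ∃ c c' : ℂ, c ≠ c' ∧ ∀ l, (h₁ - c • h₂ ∉ G.fil l (min (v l h₁) (v l h₂) + 1)) ∧
      (h₁ - c' • h₂ ∉ G.fil l (min (v l h₁) (v l h₂) + 1)) := by
  have hsub : ∀ l, ({c : ℂ | h₁ - c • h₂ ∈ G.fil l (min (v l h₁) (v l h₂) + 1)}).Subsingleton := by
    intro l c hc c' hc'
    by_contra hne
    simp only [Set.mem_ofPred_eq] at hc hc'
    set d := min (v l h₁) (v l h₂) + 1 with hd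
    have h3 : (c' - c) • h₂ ∈ G.fil l d := by
      have := (G.fil l d).sub_mem hc hc'
      have h4 : h₁ - c • h₂ - (h₁ - c' • h₂) = (c' - c) • h₂ := by
        rw [sub_smul]; abel
      rwa [h4] at this
    have h5 : c' - c ≠ 0 := sub_ne_zero.2 (Ne.symm hne)
    have h6 : h₂ ∈ G.fil l d := by
      have := ((G.fil l d).restrictScalars ℂ).smul_mem (c' - c)⁻¹ h3
      rwa [smul_smul, inv_mul_cancel₀ h5, one_smul] at this
    have h7 : h₁ ∈ G.fil l d := by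
      have h8 : c • h₂ ∈ G.fil l d := ((G.fil l d).restrictScalars ℂ).smul_mem c h6
      have := (G.fil l d).add_mem hc h8
      rwa [sub_add_cancel] at this
    have h9 := (hv h₁ h1 l d).1 h7
    have h10 := (hv h₂ h2 l d).1 h6
    omega
  have hfin : (⋃ l, {c : ℂ | h₁ - c • h₂ ∈ G.fil l (min (v l h₁) (v l h₂) + 1)}).Finite :=
    Set.finite_iUnion fun l => (hsub l).finite
  have hinf := hfin.infinite_compl
  obtain ⟨c, hc⟩ := hinf.nonempty
  obtain ⟨c', hc', hcc⟩ := (hinf.sdiff (Set.finite_singleton c)).nonempty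
  simp only [Set.mem_compl_iff, Set.mem_iUnion, not_exists] at hc hc'
  exact ⟨c, c', fun h => hcc (by rw [h]; exact Set.mem_singleton _), fun l => ⟨hc l, hc' l⟩⟩

/-- a function which is strictly antinef at `j`. -/
theorem exists_strict (hv : IsOrders G v) (hdeg : ∀ D j, (G.deg D j : ℝ) ≤ -ipR M (toR D) j)
    (j : I) {h₁ h₂ : R} (h1 : h₁ ≠ 0) (h2 : h₂ ≠ 0) (h12 : v j h₁ = v j h₂)
    (hnc : ∀ a : ℂ, G.lc j (v j h₁) h₁ ≠ a • G.lc j (v j h₁) h₂) :
    ∃ h : R, h ≠ 0 ∧ ipR M (toR (vcy v h)) j < 0 := by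
  obtain ⟨c, c', hcc, hgood⟩ := good_comb hv h1 h2
  set D : I → ℤ := fun l => min (v l h₁) (v l h₂) with hD
  have hmem : ∀ a : ℂ, h₁ - a • h₂ ∈ G.b D := by
    intro a
    rw [G.mem_b]
    intro l
    have h3 : h₁ ∈ G.fil l (D l) := (hv h₁ h1 l _).2 (min_le_left _ _)
    have h4 : h₂ ∈ G.fil l (D l) := (hv h₂ h2 l _).2 (min_le_right _ _)
    exact (G.fil l (D l)).sub_mem h3 (((G.fil l (D l)).restrictScalars ℂ).smul_mem a h4)
  have hne : h₁ - c • h₂ ≠ 0 := by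
    intro h
    apply (hgood j).1
    rw [h]
    exact (G.fil j _).zero_mem
  have hvD : vcy v (h₁ - c • h₂) = D := by
    funext l
    exact hv.eq_of hne (G.mem_b.1 (hmem c) l) (hgood l).1
  refine ⟨h₁ - c • h₂, hne, ?_⟩
  by_contra hcon
  rw [hvD] at hcon
  have h3 : G.deg D j ≤ 0 := by
    have h4 := hdeg D j
    have h5 : (G.deg D j : ℝ) ≤ 0 := by linarith [not_lt.1 hcon]
    exact_mod_cast h5
  obtain ⟨a, ha⟩ := smul_of_deg_zero h3 (hmem c) (hgood j).1 (hmem c')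
  -- compute the leading coefficients
  have hDj : D j = v j h₁ := by simp only [hD, ← h12, min_self]
  have hf1 : h₁ ∈ G.fil j (v j h₁) := hv.mem h1 j
  have hf2 : h₂ ∈ G.fil j (v j h₁) := by rw [h12]; exact hv.mem h2 j
  have hlc : ∀ b : ℂ, G.lc j (v j h₁) (h₁ - b • h₂)
      = G.lc j (v j h₁) h₁ - b • G.lc j (v j h₁) h₂ := by
    intro b
    have h4 : h₁ - b • h₂ = h₁ + (-b) • h₂ := by rw [neg_smul, sub_eq_add_neg]
    rw [h4, G.lc_add j hf1 (((G.fil j _).restrictScalars ℂ).smul_mem (-b) hf2),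
      G.lc_smul j (-b) hf2, neg_smul, ← sub_eq_add_neg]
  rw [hDj, hlc, hlc] at ha
  set x := G.lc j (v j h₁) h₁ with hx
  set y := G.lc j (v j h₁) h₂ with hy
  have hy0 : y ≠ 0 := by
    rw [hy, Ne, G.lc_eq_zero j hf2, h12]
    exact hv.not_mem h2 j
  -- x - c' y = a (x - c y)
  have h6 : (1 - a) • x = (c' - a * c) • y := by
    rw [smul_sub, smul_smul] at ha
    rw [sub_smul, sub_smul, one_smul]
    have : x - a • x = (x - c' • y) + c' • y - a • x := by abel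
    rw [this, ha]
    abel
  by_cases ha1 : a = 1
  · rw [ha1, sub_self, zero_smul, one_mul] at h6
    have h7 := smul_eq_zero.1 h6.symm
    rcases h7 with h7 | h7
    · exact hcc (sub_eq_zero.1 h7).symm
    · exact hy0 h7
  · have h7 : (1 - a) ≠ 0 := sub_ne_zero.2 (Ne.symm ha1)
    apply hnc ((1 - a)⁻¹ * (c' - a * c))
    rw [mul_smul, ← h6, smul_smul, inv_mul_cancel₀ h7, one_smul]

/-- **a strictly antinef positive integral cycle.** -/
theorem exists_strict_cycle (hv : IsOrders G v)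
    (hdeg : ∀ D j, (G.deg D j : ℝ) ≤ -ipR M (toR D) j)
    (hnc : ∀ j, ∃ h₁ h₂ : R, h₁ ≠ 0 ∧ h₂ ≠ 0 ∧ v j h₁ = v j h₂ ∧
      ∀ a : ℂ, G.lc j (v j h₁) h₁ ≠ a • G.lc j (v j h₁) h₂)
    {A : I → ℤ} (hA : ∀ j, ipR M (toR A) j ≤ 0) (hApos : ∀ l, 0 < A l) :
    ∃ A' : I → ℤ, (∀ j, ipR M (toR A') j < 0) ∧ ∀ l, 0 < A' l := by
  have h1 : ∀ j, ∃ h : R, h ≠ 0 ∧ ipR M (toR (vcy v h)) j < 0 := by
    intro j
    obtain ⟨h₁, h₂, h1, h2, h12, hnc⟩ := hnc j
    exact exists_strict hv hdeg j h1 h2 h12 hnc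
  choose h hne hlt using h1
  refine ⟨fun l => A l + ∑ j, v l (h j), fun i => ?_, fun l => ?_⟩
  · have h2 : ipR M (toR fun l => A l + ∑ j, v l (h j)) i
        = ipR M (toR A) i + ∑ j, ipR M (toR (vcy v (h j))) i := by
      simp only [ipR, toR, vcy]
      rw [Finset.sum_comm, ← Finset.sum_add_distrib]
      refine Finset.sum_congr rfl fun l _ => ?_
      push_cast
      rw [mul_add, Finset.mul_sum]
    have h3 : ∑ j, ipR M (toR (vcy v (h j))) i < 0 := by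
      calc ∑ j, ipR M (toR (vcy v (h j))) i < ∑ _j : I, (0 : ℝ) :=
            Finset.sum_lt_sum (fun j _ => anti_of hv hdeg (hne j) i)
              ⟨i, Finset.mem_univ i, hlt i⟩
        _ = 0 := by simp
    rw [h2]
    linarith [hA i]
  · have h2 : 0 ≤ ∑ j, v l (h j) := Finset.sum_nonneg fun j _ => hv.nonneg (hne j) l
    have := hApos l
    show 0 < A l + ∑ j, v l (h j)
    omega

/-- **connectedness and negative definiteness in an `LcModel`.** -/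
theorem omodel_of_lc {K : I → ℤ} {δ : I → ℝ} {X : (I → ℤ) → ℝ}
    (hM : OModel0 M K G.gg δ G.deg X) (hv : IsOrders G v)
    (hdeg : ∀ D j, (G.deg D j : ℝ) ≤ -ipR M (toR D) j)
    (hnc : ∀ j, ∃ h₁ h₂ : R, h₁ ≠ 0 ∧ h₂ ≠ 0 ∧ v j h₁ = v j h₂ ∧
      ∀ a : ℂ, G.lc j (v j h₁) h₁ ≠ a • G.lc j (v j h₁) h₂)
    {A : I → ℤ} (h2 : Anchor M X G.c A)
    (IZ : ∀ (l j : I) (a : ℤ), ∃ N : ℤ, ∀ h : R, h ≠ 0 → N ≤ v l h → a ≤ v j h) :
    OModel M K G.gg δ G.deg X := by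
  obtain ⟨A', hA', hpos⟩ := exists_strict_cycle hv hdeg hnc h2.1 h2.2.1
  refine omodel_of hM (fun j => G.gg_nonneg j) G.stepBound h2 (ne := fun h : R => h ≠ 0) (v := v)
    (fun D j h => ?_) hA' hpos IZ
  obtain ⟨g, hg, hg0, _⟩ := G.exists_of_pos h
  have hne : g ≠ 0 := by
    rintro rfl
    exact hg0 ((G.fil j _).zero_mem)
  refine ⟨g, hne, fun l => (hv g hne l _).1 (G.mem_b.1 hg l), hv.eq_of hne (G.mem_b.1 hg j) hg0⟩

end Vale.Agent.P298.H471
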