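import Vale.Agent.P298.H471.Link
import Vale.Agent.P298.H471.Strict
import Vale.Agent.P298.H272.Chev

/-!
# From the chart model to base point freeness

Rational intersection matrix, connectedness (CONN), the obstacle solution `Z'`, base point
freeness of `b(n Z)`.
-/

set_option linter.unusedSectionVars false

noncomputable section

namespace Vale.Agent.P298.H471

open Finset Vale.Agent.P298 Vale.Agent.P298.FF H416

/-! ### the rational matrix -/

section rational

variable {I H F : Type*} [Fintype I] [DecidableEq I] [Fintype H] [Fintype F]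
  (N : H400.NodeData I H F)

/-- the rational self-intersection. -/
def sq (j : I) : ℚ := (-(N.rC j : ℚ) -
  ∑ h ∈ univ.filter (fun h => N.org h = j), (N.A (N.org (N.opp h)) : ℚ) / (N.nl h).r) / N.A j

theorem sq_cast (j : I) : ((sq N j : ℚ) : ℝ) = N.s j := by
  have h1 := N.intA j
  have h2 : (N.A j : ℝ) ≠ 0 := by
    have := N.Apos j
    exact_mod_cast this.ne'
  rw [sq]
  push_cast
  rw [div_eq_iff h2]
  linarith

/-- the rational intersection matrix. -/
def Mq (i j : I) : ℚ := if i = j then sq N i else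
  ∑ h ∈ (N.at' i).filter (fun h => N.org (N.opp h) = j), 1 / ((N.nl h).r : ℚ)

theorem Mq_cast (i j : I) : ((Mq N i j : ℚ) : ℝ) = N.M i j := by
  by_cases h : i = j
  · subst h
    rw [Mq, if_pos rfl, sq_cast, N.M_self]
  · rw [Mq, if_neg h, N.M_ne h]
    push_cast
    rfl

theorem ipR_cast_q (x : I → ℚ) (j : I) :
    ipR N.M (fun l => (x l : ℝ)) j = ((∑ l, Mq N j l * x l : ℚ) : ℝ) := by
  rw [ipR]
  push_cast
  exact Finset.sum_congr rfl fun l _ => by rw [Mq_cast]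

theorem excMat_q {K g : I → ℤ} {δ : I → ℝ} {deg : (I → ℤ) → I → ℤ} {X : (I → ℤ) → ℝ}
    (hM : OModel N.M K g δ deg X) : H312.ExcMat (K := ℚ) (Matrix.of (Mq N)) where
  symm i j := by
    have := hM.symm i j
    rw [← Mq_cast, ← Mq_cast] at this
    exact_mod_cast this
  off i j hij := by
    have := hM.off i j hij
    rw [← Mq_cast] at this
    exact_mod_cast this
  neg x hx := by
    have h := hM.negdef (fun l => (x l : ℝ)) (by
      intro h0
      apply hx
      funext l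
      have := congrFun h0 l
      simpa using this)
    have h2 : ((∑ i, x i * (Matrix.of (Mq N)).mulVec x i : ℚ) : ℝ)
        = ∑ i, ∑ j, N.M i j * (x i : ℝ) * (x j : ℝ) := by
      push_cast
      refine Finset.sum_congr rfl fun i _ => ?_
      rw [H312.ExcMat.mulVec_apply']
      push_cast
      rw [Finset.mul_sum]
      refine Finset.sum_congr rfl fun j _ => ?_
      simp only [Matrix.of_apply]
      rw [Mq_cast]; ring
    rw [← h2] at h
    exact_mod_cast h

/-- lattices contain the multiples of the index. -/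
theorem mem_L_frozen (L : H400.NL) (x : ℤ) {k : ℤ} (hk : (L.r : ℤ) ∣ k) : (k * x, (0 : ℤ)) ∈ L.L := by
  obtain ⟨c, rfl⟩ := hk
  obtain ⟨y, hy⟩ := L.surj (c * x)
  have h1 := L.L.nsmul_mem hy L.r
  have h2 : ((0 : ℤ), (L.r : ℤ) * y) ∈ L.L := (L.zero _).2 (dvd_mul_right _ _)
  have h3 := L.L.sub_mem h1 h2
  have e : L.r • (c * x, y) - ((0 : ℤ), (L.r : ℤ) * y) = ((L.r : ℤ) * c * x, (0 : ℤ)) := by
    ext
    · simp; ring
    · simp
  rwa [e] at h3

/-- **the obstacle solution**, with an integral Cartier multiple. -/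
theorem exists_zdata {X : (I → ℤ) → ℝ} (hM : OModel N.M N.K N.g N.δ N.deg X)
    (hb : ∃ j, N.K j + 1 < 0) :
    ∃ (z : I → ℝ) (m : ℕ) (Z : I → ℤ), ZData N.M N.K N.deg z m Z ∧
      (∀ h, (Z (N.org h), Z (N.org (N.opp h))) ∈ (N.nl h).L) ∧
      (∀ f, (Z (N.forg f), (0 : ℤ)) ∈ (N.fnl f).L) := by
  obtain ⟨D, hD1, hD2, hD3⟩ := (excMat_q N hM).exists_zariski (fun j => ((-1 - N.K j : ℤ) : ℚ))
  have hip : ∀ j, ipR N.M (fun l => (D l : ℝ)) j = (((Matrix.of (Mq N)).mulVec D j : ℚ) : ℝ) := by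
    intro j
    rw [ipR_cast_q]
    rfl
  set z : I → ℝ := fun l => (D l : ℝ) with hz
  have hanti : ∀ j, ipR N.M z j ≤ 0 := fun j => by
    rw [hip]; exact_mod_cast hD2 j
  have hz0 : z ≠ 0 := by
    obtain ⟨j, hj⟩ := hb
    intro h
    have h1 := hD1 j
    have h2 : (D j : ℝ) = 0 := congrFun h j
    have h3 : D j = 0 := by exact_mod_cast h2
    rw [h3] at h1
    have h4 : ((-1 - N.K j : ℤ) : ℚ) ≤ ((0 : ℤ) : ℚ) := by simpa using h1
    have h5 : (-1 - N.K j : ℤ) ≤ 0 := by exact_mod_cast h4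
    omega
  have hpos : ∀ l, 0 < z l := pos_of_antinef hM hanti hz0
  -- denominators and indices
  set d0 : ℕ := ∏ l, (D l).den with hd0
  set r0 : ℕ := (∏ h, (N.nl h).r) * ∏ f, (N.fnl f).r with hr0
  have hd0pos : 0 < d0 := Finset.prod_pos fun l _ => (D l).pos
  have hr0pos : 0 < r0 :=
    mul_pos (Finset.prod_pos fun h _ => (N.nl h).rpos) (Finset.prod_pos fun f _ => (N.fnl f).rpos)
  have hint : ∀ l, ∃ y : ℤ, (y : ℚ) = d0 * D l := by
    intro l
    obtain ⟨c, hc⟩ : (D l).den ∣ d0 := Finset.dvd_prod_of_mem _ (Finset.mem_univ l)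
    refine ⟨c * (D l).num, ?_⟩
    rw [hc]
    push_cast
    have h1 : ((D l).den : ℚ) * D l = (D l).num := by
      rw [mul_comm]
      exact Rat.mul_den_eq_num (D l)
    calc (c : ℚ) * (D l).num = c * ((D l).den * D l) := by rw [h1]
      _ = (D l).den * c * D l := by ring
  choose y hy using hint
  refine ⟨z, r0 * d0, fun l => (r0 : ℤ) * y l, ?_, ?_, ?_⟩
  · have hL1 : ∀ h, ((r0 : ℤ) * y (N.org h), (r0 : ℤ) * y (N.org (N.opp h))) ∈ (N.nl h).L := by
      intro h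
      refine N.mem_L_of_dvd h ?_
      rw [hr0]
      push_cast
      exact Dvd.dvd.mul_right (Finset.dvd_prod_of_mem (fun h => ((N.nl h).r : ℤ)) (Finset.mem_univ h)) _
    have hL2 : ∀ f, ((r0 : ℤ) * y (N.forg f), (0 : ℤ)) ∈ (N.fnl f).L := by
      intro f
      refine mem_L_frozen _ _ ?_
      rw [hr0]
      push_cast
      exact Dvd.dvd.mul_left (Finset.dvd_prod_of_mem (fun f => ((N.fnl f).r : ℤ)) (Finset.mem_univ f)) _
    refine ⟨hanti, hpos, ?_, ?_, Nat.mul_pos hr0pos hd0pos, ?_, ?_⟩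
    · intro l
      have := hD1 l
      simp only [hz]
      exact_mod_cast this
    · intro j hj
      rw [hip] at hj
      have := hD3 j (by exact_mod_cast hj)
      simp only [hz]
      exact_mod_cast this
    · intro l
      have h1 : ((y l : ℤ) : ℝ) = d0 * D l := by exact_mod_cast congrArg (Rat.cast (K := ℝ)) (hy l)
      push_cast
      rw [h1]
      simp only [hz]
      ring
    · intro n D' j hD' hj
      exact N.cart hL1 hL2 n D' j hD' hj
  · intro h
    refine N.mem_L_of_dvd h ?_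
    rw [hr0]
    push_cast
    exact Dvd.dvd.mul_right (Finset.dvd_prod_of_mem (fun h => ((N.nl h).r : ℤ)) (Finset.mem_univ h)) _
  · intro f
    refine mem_L_frozen _ _ ?_
    rw [hr0]
    push_cast
    exact Dvd.dvd.mul_left (Finset.dvd_prod_of_mem (fun f => ((N.fnl f).r : ℤ)) (Finset.mem_univ f)) _

end rational

/-! ### connectedness -/

section conn

variable {τ : Type*} [Fintype τ] {J : Ideal (MvPowerSeries τ ℂ)}
  {𝒦 : Type*} [Field 𝒦] [Algebra ℂ 𝒦] [Algebra (MvPowerSeries τ ℂ ⧸ J) 𝒦]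
  [IsScalarTower ℂ (MvPowerSeries τ ℂ ⧸ J) 𝒦] {I : Type*} [Fintype I] [DecidableEq I]
  (C : H955.CModel (MvPowerSeries τ ℂ ⧸ J) 𝒦 I)

theorem fil_finite (l : I) (d : ℤ) :
    Module.Finite ℂ ((MvPowerSeries τ ℂ ⧸ J) ⧸ C.fil l d) := by
  have h := C.lcModel.fin (fun _ => d)
  have h1 : (⨅ i, C.lcModel.fil i d) ≤ C.fil l d := iInf_le _ l
  exact Module.Finite.of_surjective (Ideal.Quotient.factorₐ ℂ h1).toLinearMap
    (Ideal.Quotient.factor_surjective h1)

theorem izumi (l j : I) (a : ℤ) :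
    ∃ N : ℤ, ∀ h : MvPowerSeries τ ℂ ⧸ J, h ≠ 0 → N ≤ C.vR l h → a ≤ C.vR j h := by
  have hanti : Antitone (fun d : ℕ => C.fil l (d : ℤ)) := by
    intro d e hde h hh
    rcases hh with hh | hh
    · exact Or.inl hh
    · refine Or.inr ((?_ : (d : ℤ) ≤ e).trans hh)
      exact_mod_cast hde
  have hfin := fil_finite C j a
  obtain ⟨d, hd⟩ := H272.cheval_fin J (F := fun d : ℕ => C.fil l (d : ℤ)) hanti
    (fun d => fil_finite C l d) (C.fil j a) (by
      intro x hx
      by_cases hx0 : x = 0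
      · exact Or.inl hx0
      · exfalso
        have h1 := (C.mem_fil.1 (hx ((C.vR l x).toNat + 1))).resolve_left hx0
        have h2 := Int.self_le_toNat (C.vR l x)
        push_cast at h1
        omega)
  exact ⟨d, fun h hh hN => (C.mem_fil.1 (hd (Or.inr hN))).resolve_left hh⟩

theorem isOrders : IsOrders C.lcModel C.vR := by
  intro h hh i d
  rw [C.lc_fil]
  exact ⟨fun h1 => (C.mem_fil.1 h1).resolve_left hh, fun h1 => Or.inr h1⟩

/-- two functions with nonconstant ratio of leading coefficients. -/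
theorem exists_nc (j : I) : ∃ h₁ h₂ : MvPowerSeries τ ℂ ⧸ J, h₁ ≠ 0 ∧ h₂ ≠ 0 ∧
    C.vR j h₁ = C.vR j h₂ ∧
    ∀ a : ℂ, C.lcModel.lc j (C.vR j h₁) h₁ ≠ a • C.lcModel.lc j (C.vR j h₁) h₂ := by
  have hη0 : C.η j ≠ 0 := by
    intro h
    apply C.η_nc j 0
    rw [h, map_zero]
  obtain ⟨z, hz, hv, hl⟩ := C.exists_lift j 0 hη0
  obtain ⟨g, h, hh, hgh⟩ := C.frac z
  have hh' := C.map_ne hh
  have hg : g ≠ 0 := by
    rintro rfl
    rw [map_zero] at hgh
    exact mul_ne_zero hz hh' hgh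
  have hg' := C.map_ne hg
  have hvg : C.vR j g = C.vR j h := by
    rw [H955.CModel.vR, ← hgh, (C.hv j).mul _ _ hz hh', hv, zero_add]
    rfl
  refine ⟨g, h, hg, hh, hvg, fun a ha => ?_⟩
  -- leading coefficients
  have ha' : C.lco j (C.vR j g) (algebraMap _ 𝒦 g) = a • C.lco j (C.vR j g) (algebraMap _ 𝒦 h) := ha
  have h1 : C.lco j (C.vR j g) (algebraMap _ 𝒦 g)
      = C.lco j 0 z * C.lco j (C.vR j g) (algebraMap _ 𝒦 h) := by
    show C.rs j (algebraMap _ 𝒦 g * C.pi j ^ (-(C.vR j g)))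
      = C.rs j (z * C.pi j ^ (-(0 : ℤ))) * C.rs j (algebraMap _ 𝒦 h * C.pi j ^ (-(C.vR j g)))
    rw [← C.rs_mul (C.shift_mem (Or.inr hv.ge)) (C.shift_mem (Or.inr (by rw [hvg]; rfl))), ← hgh]
    congr 1
    rw [neg_zero, zpow_zero, mul_one]
    ring
  have h2 : C.lco j (C.vR j g) (algebraMap _ 𝒦 h) ≠ 0 := by
    rw [hvg]
    exact C.lco_ne hh'
  rw [h1, hl, Algebra.smul_def] at ha'
  exact C.η_nc j a (mul_right_cancel₀ h2 ha')

/-- **the combinatorial model of a chart model is connected and negative definite.** -/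
theorem exists_omodel_of
    (hanchor : ∀ G : I → ℤ, ∑ j, C.nodeData.rC j * (2 * G j + C.nodeData.A j + C.nodeData.K j) ≤
      2 * (C.c (G + C.nodeData.A) - C.c G)) :
    ∃ X : (I → ℤ) → ℝ, OModel C.nodeData.M C.nodeData.K C.nodeData.g C.nodeData.δ C.nodeData.deg X ∧
      Anchor C.nodeData.M X C.c C.nodeData.A := by
  obtain ⟨X, hX1, hX2⟩ := C.nodeData.exists_pot
  have hA := C.nodeData.anchor (c := C.c) hX2 hanchor
  refine ⟨X, ?_, hA⟩
  have hM0 : OModel0 C.nodeData.M C.nodeData.K C.nodeData.g C.nodeData.δ C.nodeData.deg X :=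
    ⟨C.nodeData.M_symm, fun _ _ h => C.nodeData.M_off h, C.nodeData.adj', C.nodeData.pos, hX1⟩
  exact omodel_of_lc (G := C.lcModel) hM0 (isOrders C) (fun D j => C.nodeData.deg_le D j)
    (exists_nc C) hA (izumi C)

/-- **base point freeness.** -/
theorem exists_bpf
    (hanchor : ∀ G : I → ℤ, ∑ j, C.nodeData.rC j * (2 * G j + C.nodeData.A j + C.nodeData.K j) ≤
      2 * (C.c (G + C.nodeData.A) - C.c G)) (hb : ∃ j, C.K j + 1 < 0) :
    ∃ (X : (I → ℤ) → ℝ) (z : I → ℝ) (m : ℕ) (Z : I → ℤ),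
      OModel C.nodeData.M C.nodeData.K C.nodeData.g C.nodeData.δ C.nodeData.deg X ∧
      ZData C.nodeData.M C.nodeData.K C.nodeData.deg z m Z ∧
      ∃ n₀ : ℕ, ∀ n : ℕ, n₀ ≤ n → ∀ q : C.Q, ∃ h : MvPowerSeries τ ℂ ⧸ J, h ≠ 0 ∧
        (∀ l, (n : ℤ) * Z l ≤ C.vR l h) ∧ C.vR q.1 h = n * Z q.1 ∧
        (∀ q', C.nb q = some q' → C.vR q'.1 h = n * Z q'.1) ∧
        C.lam q (algebraMap _ 𝒦 h) = C.e2 q * C.y (fun l => C.vR l h) q := by
  obtain ⟨X, hM, hA⟩ := exists_omodel_of C hanchor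
  obtain ⟨z, m, Z, hZ, hL1, hL2⟩ := exists_zdata C.nodeData hM hb
  have hcart : C.Cart Z := ⟨fun h => hL1 h, fun f => hL2 f⟩
  obtain ⟨n₀, hn₀⟩ := bpf hM (fun j => C.lcModel.gg_nonneg j) C.stepBound hA hZ (C.bModel hcart)
  refine ⟨X, z, m, Z, hM, hZ, n₀, fun n hn q => ?_⟩
  obtain ⟨h, hh, hge, h1, h2, h3⟩ := hn₀ n hn q.1 q.2
  refine ⟨h, hh, hge, h1, fun q' hq' => h2 q'.1 ?_, h3⟩
  have : (⟨q.1, q.2⟩ : C.Q) = q := rfl
  rw [H955.CModel.nbi, this, hq']
  rfl

end conn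

end Vale.Agent.P298.H471
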