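import Vale.Agent.P298.H471.E1A
import Vale.Agent.P298.H868.Coord
import Vale.Agent.P298.H983.End5
import Vale.Agent.P298.Main.Iface

/-!
# The output of block E1 from the link between charts and places
-/

set_option linter.unusedSectionVars false

noncomputable section

namespace Vale.Agent.P298.H471

open Finset Filter Topology Polynomial Vale.Agent.P298 Vale.Agent.P298.H707
open Vale.Agent.P298.H379 (InI pt)
open Vale.Agent.P298.Main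

section link

variable {f : (Fin 3 → ℂ) → ℂ} {κ : Type*} {Θ : κ → ℂ × ℂ → ℂ × ℂ} {n : ℕ}
    {P : ℂ × ℂ → ℂ[X]} {v : ℂ × (ℂ × ℂ) → ℂ} {K : κ → ℕ} {ζ : κ → Fin n → ℂ × ℂ → ℂ}
    {σ ρ : κ → Equiv.Perm (Fin n)} {M : Model f Θ n P v K ζ σ ρ} {𝒦 : Type*} [Field 𝒦]
    [Algebra ℂ 𝒦] [Algebra (RV f) 𝒦] [IsScalarTower ℂ (RV f) 𝒦] {I : Type*} [Fintype I]
    [DecidableEq I] {C : H955.CModel (RV f) 𝒦 I}

/-- if the surface is not log canonical, some component has a log discrepancy `< 0`. -/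
theorem exists_neg (Lk : Link M C) (hlc : ¬ LC f) : ∃ j, C.K j + 1 < 0 := by
  by_contra hcon
  push Not at hcon
  refine hlc fun h hh h0 k hk => H983.inI_of_link Lk hh hk ?_
  by_cases hc : cl f h = 0
  · exact Or.inl hc
  · refine Or.inr fun j => ?_
    have h1 : (1 : ℤ) ≤ C.vR j (cl f h) := H983.vpos Lk hh h0 hc j
    have h2 : ((1 : ℤ) : ℝ) ≤ C.vR j (cl f h) := Int.cast_le.2 h1
    have h3 : ((0 : ℤ) : ℝ) ≤ (C.K j + 1 : ℤ) := Int.cast_le.2 (hcon j)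
    push_cast at h2 h3
    have h4 : k * (-1 - (C.K j : ℝ)) ≤ 0 := mul_nonpos_of_nonneg_of_nonpos hk.le (by linarith)
    linarith

/-- **the pair `e, e'`** for a surface with a link. -/
theorem e1_of_link (Lk : Link M C) (hlc : ¬ LC f) :
    ∃ (m A : ℕ) (e e' : (Fin 3 → ℂ) → ℂ), E1Data f m A e e' := by
  obtain ⟨j₀, hj₀⟩ := exists_neg Lk hlc
  obtain ⟨X, z, m, Z, hM, hZ, n₀, hn₀⟩ := exists_bpf C Lk.anchor ⟨j₀, hj₀⟩
  have hm : 0 < m := hZ.hm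
  obtain ⟨A, e, e', h⟩ := H983.fin_link (Lk := Lk) hM hZ j₀ (N := n₀ + 2)
    (by nlinarith) (hn₀ (n₀ + 2) (by omega))
  exact ⟨_, A, e, e', h⟩

end link

/-- the output of the geometry. -/
def LinkOut : Prop := ∀ (f : (Fin 3 → ℂ) → ℂ) (μ n : ℕ) (P : ℂ × ℂ → ℂ[X])
    (v : ℂ × (ℂ × ℂ) → ℂ), Hol f → f 0 = 0 → Milnor f μ → Reg3 f → WD f n P v →
    (∃ᶠ y in 𝓝 (0 : ℂ), disc n P (0, y) ≠ 0) → ¬ LC f →
    ∃ (κ : Type) (Θ : κ → ℂ × ℂ → ℂ × ℂ) (K : κ → ℕ) (ζ : κ → Fin n → ℂ × ℂ → ℂ)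
      (σ ρ : κ → Equiv.Perm (Fin n)) (M : Model f Θ n P v K ζ σ ρ)
      (𝒦 : Type) (_ : Field 𝒦) (_ : Algebra ℂ 𝒦) (_ : Algebra (RV f) 𝒦)
      (_ : IsScalarTower ℂ (RV f) 𝒦) (I : Type) (_ : Fintype I) (_ : DecidableEq I)
      (C : H955.CModel (RV f) 𝒦 I), Nonempty (Link M C)

/-- **block E1, from the geometry.** -/
theorem e1Stmt_of_link (H : LinkOut) : E1Stmt := by
  refine H868.Coord.e1_of_good fun f μ n P v hf hf0 hμ hreg hW hd hlc => ?_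
  obtain ⟨κ, Θ, K, ζ, σ, ρ, M, 𝒦, _, _, _, _, I, _, _, C, ⟨Lk⟩⟩ :=
    H f μ n P v hf hf0 hμ hreg hW hd hlc
  exact e1_of_link Lk hlc

end Vale.Agent.P298.H471
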