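import Vale.Agent.P298.H955.Adj9
import Vale.Agent.P298.H701.LkS
import Vale.Agent.P298.H416.Surf7
import Vale.Agent.P298.H868.XT
import Vale.Agent.P298.H868.Xm2
import Vale.Agent.P298.H766.Anc10
import Vale.Agent.P298.H707.JT2
import Vale.Agent.P298.H955.Nb
import Vale.Agent.P298.H471.E1Top

/-!
# The chart model and the link of a surface, from a family of embeddings
-/

set_option linter.style.haveILetI false
set_option linter.unusedSectionVars false

noncomputable section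

namespace Vale.Agent.P298.H471

open Filter Topology Polynomial Vale.Agent.P298 Vale.Agent.P298.H707 Vale.Agent.P298.H928
open Vale.Agent.P298.FF Vale.Agent.P298.H400 Vale.Agent.P298.H955 Vale.Agent.P298.H868.Xf
open Vale.Agent.P298.H416 (Om Ta Surf pwOm swOm Ovr)

variable {f : (Fin 3 → ℂ) → ℂ} {n : ℕ} {P : ℂ × ℂ → ℂ[X]} {v : ℂ × (ℂ × ℂ) → ℂ}
  {T : Tree fun p => p.1 * disc n P p} {ζ : PlT T → Fin n → ℂ × ℂ → ℂ}
  {σ ρ : PlT T → Equiv.Perm (Fin n)} {K : Type} [Field K] [Algebra ℂ K] [Algebra L0 K]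
  [IsScalarTower ℂ L0 K] [FiniteDimensional L0 K] [Algebra.IsSeparable L0 K]
  [Algebra (RV f) K] [IsScalarTower ℂ (RV f) K]
  (J : JungT f n P v T ζ σ ρ) {hN : 0 < n.factorial}
  {split : ∀ (p : PlT T) (g : K), ((minpoly L0 g).map
      ((pwOm n.factorial hN).comp (T.thL p.1.2 p.2 1 one_ne_zero))).Splits}
  {hR : ∀ (p : PlT T) (ψ : K →+* Om), (∀ x : L0, ψ (algebraMap L0 K x) =
      pwOm n.factorial hN (T.thL p.1.2 p.2 1 one_ne_zero x)) →
      ∀ h : RV f, ∃ F : R2, ψ (algebraMap (RV f) K h) = algebraMap R2 Om F}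
  {inj : Function.Injective (algebraMap (RV f) K)}

variable (E : ∀ p : PlT T, Fin n → (srf hN split hR inj).Emb p)
  (hE : ∀ (p : PlT T) (ψ : (srf hN split hR inj).Emb p), ∃ l, ψ = E p l)
  (hpsi : ∀ (p : PlT T) (l : Fin n) (h : RV f),
    (E p l).f (algebraMap (RV f) K h) = algebraMap R2 Om (psiR J.M p l h))
  {w : ℂˣ} (hmon : ∀ p : PlT T, Surf.Mon (srf hN split hR inj) p (E p) (σ p) (ρ p) w)

include hpsi in
theorem hser (p : PlT T) (l : Fin n) (h : (Fin 3 → ℂ) → ℂ) (hh : Hol h) :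
    (E p l).f (algebraMap (RV f) K (cl f h)) =
      algebraMap R2 Om (H701.ser2 fun q => h (J.M.ch p l q)) := by
  rw [hpsi, psiR_cl _ _ _ hh]

/-- the derivative of the equation, in the function field. -/
def fzK (f : (Fin 3 → ℂ) → ℂ) (K : Type) [Field K] [Algebra (RV f) K] : K :=
  algebraMap (RV f) K (cl f (pd 2 f))

include hpsi in
theorem hEf (p : PlT T) (l : Fin n) :
    (E p l).f (fzK f K) = algebraMap R2 Om (H701.ser2 fun q => pd 2 f (J.M.ch p l q)) :=
  hser J E hpsi p l (pd 2 f) (H983.hol_pd J.M.hf 2)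

include hpsi in
theorem fz_ne (h0 : 0 < n) : fzK f K ≠ 0 := by
  intro h
  have h1 := hEf J E hpsi (⟨[], T.nil_mem⟩, none) ⟨0, h0⟩
  rw [h, map_zero] at h1
  obtain ⟨c, d, h2⟩ := J.M.monU_pd (⟨[], T.nil_mem⟩, none) ⟨0, h0⟩
  obtain ⟨U, hU, h3⟩ := (H701.monU_iff h2.analyticAt c d).1 h2
  have h4 : H701.ser2 (fun q => pd 2 f (J.M.ch (⟨[], T.nil_mem⟩, none) ⟨0, h0⟩ q)) = 0 := by
    refine IsFractionRing.injective R2 Om ?_
    rw [map_zero]
    exact h1.symm
  rw [h4] at h3
  exact mul_ne_zero (H701.mono_ne_zero c d) hU.ne_zero h3.symm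

section ext

variable {μ : ℕ} (hμ : Milnor f μ) (hn : 0 < n)
  (hDy : ∃ᶠ y in 𝓝 (0 : ℂ), disc n P (0, y) ≠ 0)
  (hfrac : ∀ z : K, ∃ g h : RV f, h ≠ 0 ∧ z * algebraMap (RV f) K h = algebraMap (RV f) K g)
  (hx : algebraMap (RV f) K (xR f) = algebraMap L0 K (algebraMap R2 Om (MvPowerSeries.X 0)))
  (XD : (srf hN split hR inj).XD (algebraMap R2 Om (MvPowerSeries.X 0)))

include J hμ hn hE hpsi hmon in
theorem derF : Der (ovr (T := T) (hN := hN) (split := split) (hR := hR) (inj := inj))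
    (fzK f K) := by
  choose c d hcd using fun p l => J.M.monU_pd p l
  exact derJ J hμ E hE (fz_ne J E hpsi hn) hcd (hEf J E hpsi) fun p l => (hmon p).e2_eq l

include J hE hpsi in
theorem mm_vF (h : RV f) (hh : h ∈ mm f) (h0 : h ≠ 0) (i : (srf hN split hR inj).I) :
    1 ≤ (srf hN split hR inj).vv i (algebraMap (RV f) K h) := by
  refine H701.SurfR.mm_v' (S := srf hN split hR inj) i h0 fun p ψ => ?_
  obtain ⟨l, rfl⟩ := hE p ψ
  exact ⟨psiR J.M p l h, hpsi p l h,
    X0_dvd_psiR J.M p l (Eventually.of_forall (JungT.exc T p)) hh⟩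

include hx XD in
theorem xR_neF : xR f ≠ 0 := by
  intro h
  obtain ⟨q, -, hq⟩ := XD.zero
  rw [← hx, h, map_zero] at hq
  apply hq
  change Ta.lam (((srf hN split hR inj).psq q).f 0) = 0
  rw [map_zero, H416.Ta_lam, map_zero, HahnSeries.leadingCoeff_zero, HahnSeries.order_zero]

/-- **the remaining fields of the chart model.** -/
def extF (D : Der (ovr (T := T) (hN := hN) (split := split) (hR := hR) (inj := inj)) (fzK f K))
    (hmv : ∀ h ∈ mm f, h ≠ 0 → ∀ i, 1 ≤ (srf hN split hR inj).vv i (algebraMap (RV f) K h)) :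
    (srf hN split hR inj).Ext where
  nb_symm := H955.nb_symm _
  nb_ne := H955.nb_ne _
  nb_fin := H955.nb_fin _
  ram_fin := Surf.ram_fin _
  lam_fin := Surf.lam_fin _
  hR := H701.SurfR.hR_mem _
  node_le := H701.SurfR.node_le
  node_nv := H701.SurfR.node_nv
  free_le := H701.SurfR.free_le
  Kc := (ovr (T := T) (hN := hN) (split := split) (hR := hR) (inj := inj)).KS (fzK f K)
  ω := (ovr (T := T) (hN := hN) (split := split) (hR := hR) (inj := inj)).omS (fzK f K)
  ω_ne := (ovr (T := T) (hN := hN) (split := split) (hR := hR) (inj := inj)).omS_ne D.ne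
  ω_v := (ovr (T := T) (hN := hN) (split := split) (hR := hR) (inj := inj)).omS_v (fzK f K)
  η := (ovr (T := T) (hN := hN) (split := split) (hR := hR) (inj := inj)).eta
  η_nc := (ovr (T := T) (hN := hN) (split := split) (hR := hR) (inj := inj)).eta_nc'
  adj_node := fun _ _ h => adj_node nodesJ D h (Surf.e2_node h)
  adj_free := fun _ h => adj_free nodesJ D h
  x := xR f
  x_ne := xR_neF hx XD
  x_pos := fun i => by rw [hx]; exact XD.pos i
  x_node := fun q q' h => by rw [hx]; exact XD.node q q' h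
  x_ram := fun q h he => by rw [hx]; exact XD.ram q h he
  x_zero := by rw [hx]; exact XD.zero
  frac := hfrac
  mm := mm f
  mm_fin := mm_fin f
  mm_v := hmv

/-! ### the place of the curve `x = 0` -/

theorem not_exc_run (k : ℕ) : ¬ exc (runW k []) := by
  rw [runW, exc_replicate]
  simp [exc]

include XD in
theorem hallF {i₀ : PlT T} {k : ℕ} (hk : i₀.2 :: i₀.1.1 = runW k []) (hi₀ : i₀.2 :: i₀.1.1 ∉ T.C)
    (hE : ∀ (p : PlT T) (ψ : (srf hN split hR inj).Emb p), ∃ l, ψ = E p l)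
    (hx : algebraMap (RV f) K (xR f) = algebraMap L0 K (algebraMap R2 Om (MvPowerSeries.X 0)))
    (q : (srf hN split hR inj).Q) (hq : (srf hN split hR inj).nb q = none)
    (hl : (srf hN split hR inj).lam q (algebraMap (RV f) K (xR f)) ≠ 0) :
    ∃ l, Surf.pl (E i₀ l) = q := by
  have h1 : (srf hN split hR inj).nd ((srf hN split hR inj).cht q) = none := Surf.nd_of_nb_none hq
  obtain ⟨h2, h3⟩ := ndT_none.1 (show ndT T ((srf hN split hR inj).cht q) = none from h1)
  obtain ⟨b, h4, h5, -⟩ := monU_fst T ((srf hN split hR inj).cht q)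
  have h6 : 0 < b := by
    rcases Nat.eq_zero_or_pos b with hb | hb
    · exfalso
      apply hl
      rw [hx, Surf.lam_alg]
      obtain ⟨U, hU, h7⟩ := mono_X0 (T := T) ((srf hN split hR inj).cht q) h4
      have h8 : Ta.lam ((srf hN split hR inj).θ ((srf hN split hR inj).cht q) (algebraMap R2 Om (MvPowerSeries.X 0))) = b := by
        have h9 : (srf hN split hR inj).θ ((srf hN split hR inj).cht q) (algebraMap R2 Om (MvPowerSeries.X 0)) =
          algebraMap R2 Om (MvPowerSeries.X 0 ^ (mtop 0 1 ((srf hN split hR inj).cht q).1.1) *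
            MvPowerSeries.X 1 ^ b * U) := h7
        rw [h9]
        exact (H416.Ta_mono hU rfl).2.1
      rw [h8, hb, Nat.cast_zero, mul_zero]
    · exact hb
  obtain ⟨k', hk'⟩ := h5 h2 h3 h6
  have h7 : (srf hN split hR inj).cht q = i₀ := ground_unique' T h2 hi₀ hk' hk
  have key : ∀ (p : PlT T) (ψ : (srf hN split hR inj).Emb p), p = i₀ → ∃ l, Surf.pl (E i₀ l) = Surf.pl ψ := by
    rintro p ψ rfl
    obtain ⟨l, rfl⟩ := hE p ψ
    exact ⟨l, rfl⟩
  obtain ⟨l, hl⟩ := key _ ((srf hN split hR inj).psq q) h7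
  exact ⟨l, hl.trans (Surf.pl_psq q)⟩

include J hμ hn hDy hE hpsi hmon hfrac hx XD in
/-- **the chart model and the link.** -/
theorem exists_link : ∃ X : (srf hN split hR inj).Ext,
    Nonempty (Link J.M ((srf hN split hR inj).cmodel X)) := by
  classical
  have D : Der (ovr (T := T) (hN := hN) (split := split) (hR := hR) (inj := inj)) (fzK f K) :=
    derF J E hE hpsi hmon hμ hn
  have hfz := fz_ne J E hpsi hn
  have hEf' := hEf J E hpsi
  have he2 : ∀ p l, (srf hN split hR inj).e2 (Surf.pl (E p l)) =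
      ((n.factorial / Function.minimalPeriod (ρ p) l : ℕ) : ℤ) := fun p l => (hmon p).e2_eq l
  refine ⟨extF hfrac hx XD D (mm_vF J E hE hpsi), ?_⟩
  set X := extF hfrac hx XD D (mm_vF J E hE hpsi) with hX
  choose a b hab using fun p => JungT.jac T p
  choose c d hcd using fun p l => J.M.monU_pd p l
  have hcA : ∀ (p : PlT T) (l : Fin n), (n.factorial * (a p + 1) : ℤ) - c p l =
      (srf hN split hR inj).ka (Surf.pl (E p l)) * (X.Kc (Surf.pl (E p l)).1 + 1) := by
    intro p l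
    exact (canAJ J E hfz hcd hEf' p l (hab p)).trans (congrArg (fun t : ℤ => t *
      (X.Kc (Surf.pl (E p l)).1 + 1)) (H701.LkQ.kk_cast (S := srf hN split hR inj) E p l))
  have hcB : ∀ (p : PlT T) (l : Fin n), (n.factorial * (b p + 1) : ℤ) - d p l =
      (srf hN split hR inj).e2 (Surf.pl (E p l)) *
        (((srf hN split hR inj).nb (Surf.pl (E p l))).elim 1 (fun q => X.Kc q.1 + 1)) :=
    fun p l => canBJ J hμ E hE hfz hcd hEf' he2 p l (hab p)
  obtain ⟨k, i₀, hk, hi₀, hΘ⟩ := exists_ground T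
  have hni : ¬ exc (i₀.2 :: i₀.1.1) := by
    rw [hk]
    exact not_exc_run k
  have hnd : ndT T i₀ = none := ndT_none.2 ⟨hi₀, hni⟩
  have hmx : MonU (fun q => (ThT T i₀ q).1) (k + 1) 1 := by
    refine ⟨fun _ => 1, analyticAt_const, one_ne_zero, Eventually.of_forall fun q => ?_⟩
    change (ThT T i₀ q).1 = q.1 ^ (k + 1) * q.2 ^ 1 * 1
    rw [hΘ, pow_one, mul_one]
  have hρ : ρ i₀ = 1 := rho_eq_one_T J hDy i₀ ⟨hi₀, hni⟩ hmx one_pos
  let q : PlT T → Fin n → (srf hN split hR inj).Q := fun p l => Surf.pl (E p l)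
  have hcast : ∀ p l, (((srf hN split hR inj).ka (q p l)).toNat : ℤ) =
      (srf hN split hR inj).ka (q p l) := fun p l =>
    Int.toNat_of_nonneg ((srf hN split hR inj).ka_pos _).le
  have hord : ∀ h, Hol h → cl f h ≠ 0 → ∀ i l, ∃ (α β δ : ℕ) (u : ℂ × ℂ → ℂ) (g : ℂ → ℂ),
      (α : ℤ) = ((srf hN split hR inj).ka (q i l)).toNat *
        ((srf hN split hR inj).cmodel X).vR (q i l).1 (cl f h) ∧
      (β : ℤ) = ((srf hN split hR inj).cmodel X).e2 (q i l) *
        ((srf hN split hR inj).cmodel X).y (fun j =>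
          ((srf hN split hR inj).cmodel X).vR j (cl f h)) (q i l) ∧
      ((β + δ : ℕ) : ℤ) = ((srf hN split hR inj).cmodel X).lam (q i l)
        (algebraMap (RV f) K (cl f h)) ∧
      AnalyticAt ℂ u 0 ∧ AnalyticAt ℂ g 0 ∧ g 0 ≠ 0 ∧
      (∀ᶠ p in 𝓝 (0 : ℂ × ℂ), h (J.M.ch i l p) = p.1 ^ α * p.2 ^ β * u p) ∧
      (∀ᶠ b in 𝓝 (0 : ℂ), u (0, b) = b ^ δ * g b) := fun h hh h0 i l =>
    H701.LkQ.surf_ord (S := srf hN split hR inj) (E i l) (hser J E hpsi i l h hh)
      (AnalyticAt.comp_of_eq hh (J.M.an_ch i l) (J.M.ch_zero i l)) h0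
  have hzero : ∀ h, Hol h → cl f h = 0 → ∀ i l, ∀ᶠ p in 𝓝 (0 : ℂ × ℂ), h (J.M.ch i l p) = 0 :=
    fun h hh h0 i l => H701.link_zero (E i l).f (hser J E hpsi i l h hh)
      (AnalyticAt.comp_of_eq hh (J.M.an_ch i l) (J.M.ch_zero i l)) h0
  have hanchor := H766.anchor_of J.M ((srf hN split hR inj).cmodel X) q
    (fun p l => ((srf hN split hR inj).ka (q p l)).toNat) hord hzero hab hcd
    (fun p l => by
      have h := hcA p l
      rw [← hcast] at h
      exact h)
    i₀ k (Eventually.of_forall hΘ) hDy (xR_eq f)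
    (fun l l' => (hmon i₀).pl_iff_one hρ l l')
    (fun l => Surf.nb_pl_none (E i₀ l) hnd)
    (fun l => (hmon i₀).e1_one hρ l)
    (fun l => by
      have h := (hmon i₀).count_filter hρ l
      have h' : (((srf hN split hR inj).ka (Surf.pl (E i₀ l))).toNat : ℤ) *
        ((Finset.univ.filter fun l' => Surf.pl (E i₀ l') = Surf.pl (E i₀ l)).card : ℤ) =
          n.factorial := by
        rw [hcast i₀ l]
        exact h
      exact_mod_cast h')
    (fun p hp hl => hallF E XD hk hi₀ hE hx p hp hl)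
  exact ⟨(⟨id, Function.bijective_id, E, hE, fun p l h hh => hser J E hpsi p l h hh, a, b, hab,
    c, d, hcd, hcA, hcB, JungT.inj T, fun i => Eventually.of_forall (JungT.exc T i), hanchor⟩ :
    H701.LkQ.SLink J.M (srf hN split hR inj) X).link⟩

end ext

end Vale.Agent.P298.H471
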