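import Vale.Agent.P298.H471.Last
import Vale.Agent.P298.H416.MonJ
import Vale.Agent.P298.H868.XJ
import Vale.Agent.P298.H928.SurfJ

/-!
# The output of the geometry; block E1
-/

set_option linter.style.haveILetI false

noncomputable section

namespace Vale.Agent.P298.H471

open Filter Topology Polynomial Vale.Agent.P298 Vale.Agent.P298.H707 Vale.Agent.P298.H928
open Vale.Agent.P298.H868.Xf
open Vale.Agent.P298.H416 (Om Ta Surf)
open Vale.Agent.P298.H701 (KF PL)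
open Vale.Agent.P298.Main (LC E1Stmt Reg3)

section conc

variable {f : (Fin 3 → ℂ) → ℂ} {n : ℕ} {P : ℂ × ℂ → ℂ[X]} {v : ℂ × (ℂ × ℂ) → ℂ}
  {T : Tree fun p => p.1 * disc n P p} {ζ : PlT T → Fin n → ℂ × ℂ → ℂ}
  {σ ρ : PlT T → Equiv.Perm (Fin n)} (J : JungT f n P v T ζ σ ρ)
  [hirr : Fact (Irreducible (PL n P))]

theorem EJ_psiR :
    letI := algRK J.M.hf J.M.W
    haveI := towRK J.M.hf J.M.W
    haveI := finDim_KF J.M.W
    haveI := sep_KF J.M.W
    ∀ (p : PlT T) (l : Fin n) (h : RV f),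
      (EJ J p l).f (algebraMap (RV f) (KF n P) h) = algebraMap R2 Om (psiR J.M p l h) := by
  intro p l h
  obtain ⟨g, rfl⟩ := Ideal.Quotient.mk_surjective (I := Ideal.span {H766.ser f}) h
  exact psJ_rk J p l g

theorem exists_linkJ (hf0 : f 0 = 0) {μ : ℕ} (hμ : Milnor f μ)
    (hDy : ∃ᶠ y in 𝓝 (0 : ℂ), disc n P (0, y) ≠ 0) :
    letI := algRK J.M.hf J.M.W
    haveI := towRK J.M.hf J.M.W
    haveI := finDim_KF J.M.W
    haveI := sep_KF J.M.W
    ∃ X : (surfJ J).Ext, Nonempty (Link J.M ((surfJ J).cmodel X)) := by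
  letI := algRK J.M.hf J.M.W
  haveI := towRK J.M.hf J.M.W
  haveI := finDim_KF J.M.W
  haveI := sep_KF J.M.W
  exact exists_link (K := KF n P) J (EJ J) (EJ_surj J) (EJ_psiR J) (H416.monJ J) hμ
    (J.n_pos hf0) hDy (H701.frac J.M.hf J.M.W) (algRK_x J.M.hf J.M.W)
    (xdJ J hf0 hDy _ _ _)

end conc

/-- **the output of the geometry.** -/
theorem linkOut : LinkOut := by
  intro f μ n P v hf hf0 hμ hreg hW hDy hlc
  obtain ⟨T, ζ, σ, ρ, J⟩ := exists_jungT hf hμ hW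
  haveI : Fact (Irreducible (PL n P)) := fact_irr hf hf0 hμ hW
  letI := algRK J.M.hf J.M.W
  haveI := towRK J.M.hf J.M.W
  haveI := finDim_KF J.M.W
  haveI := sep_KF J.M.W
  obtain ⟨X, hX⟩ := exists_linkJ J hf0 hμ hDy
  exact ⟨PlT T, ThT T, fun _ => n.factorial, ζ, σ, ρ, J.M, KF n P, inferInstance, inferInstance,
    algRK J.M.hf J.M.W, towRK J.M.hf J.M.W, (surfJ J).I, inferInstance, inferInstance,
    (surfJ J).cmodel X, hX⟩

/-- **block E1.** -/
theorem e1Stmt : E1Stmt := e1Stmt_of_link linkOut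

end Vale.Agent.P298.H471
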