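import Mathlib

/-!
# Exactness of computation sequences by counting (row E1-PATH)

`I` = components of the exceptional set, `M` = (rational or real) intersection matrix,
`K` = canonical cycle, `g` = genera, `δ` = the orbifold differents (`0` on a smooth model),
`deg D j` = degree of the line bundle of leading coefficients of `b(D)` on `E_j`,
`X` = the Riemann-Roch potential, `c D` = colength of `b(D) = {h | v_j(h) ≥ D_j}`.
-/

set_option linter.unusedSectionVars false

noncomputable section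

namespace Vale.Agent.P298.H471

open Finset

variable {I : Type*} [Fintype I] [DecidableEq I]

/-- intersection number `W . E_j` of a real cycle. -/
def ipR (M : I → I → ℝ) (W : I → ℝ) (j : I) : ℝ := ∑ l, M j l * W l

/-- an integral cycle as a real cycle. -/
def toR (D : I → ℤ) : I → ℝ := fun l => (D l : ℝ)

/-- the cycle `E_j`. -/
def ee (j : I) : I → ℤ := fun l => if l = j then 1 else 0

/-- the combinatorial data of a (possibly orbifold) good model, without connectedness and
negative definiteness. -/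
structure OModel0 (M : I → I → ℝ) (K g : I → ℤ) (δ : I → ℝ) (deg : (I → ℤ) → I → ℤ)
    (X : (I → ℤ) → ℝ) : Prop where
  symm : ∀ i j, M i j = M j i
  off : ∀ i j, i ≠ j → 0 ≤ M i j
  adj : ∀ j, ipR M (toR K) j + M j j = 2 * g j - 2 + δ j
  pos : ∀ D j, -ipR M (toR D) j - δ j ≤ deg D j
  pot : ∀ D j, X (D + ee j) - X D = deg D j + 1 - g j

/-- the combinatorial data of a (possibly orbifold) good model. -/
structure OModel (M : I → I → ℝ) (K g : I → ℤ) (δ : I → ℝ) (deg : (I → ℤ) → I → ℤ)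
    (X : (I → ℤ) → ℝ) : Prop extends OModel0 M K g δ deg X where
  conn : ∀ S : Finset I, S.Nonempty → S ≠ univ → ∃ i ∈ S, ∃ j, j ∉ S ∧ 0 < M i j
  negdef : ∀ x : I → ℝ, x ≠ 0 → ∑ i, ∑ j, M i j * x i * x j < 0

/-- a class of antinef cycles for which everything works without connectedness: `W > 0`
antinef, and either `W` is strictly antinef or `M` is negative definite. -/
structure NC (M : I → I → ℝ) (W : I → ℝ) : Prop where
  pos : ∀ l, 0 < W l
  anti : ∀ j, ipR M W j ≤ 0
  alt : (∀ x : I → ℝ, x ≠ 0 → ∑ i, ∑ j, M i j * x i * x j < 0) ∨ ∀ j, ipR M W j < 0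

/-! ### positivity -/

lemma ipR_add (M : I → I → ℝ) (W W' : I → ℝ) (j : I) :
    ipR M (W + W') j = ipR M W j + ipR M W' j := by
  simp only [ipR, Pi.add_apply, mul_add, Finset.sum_add_distrib]

lemma ipR_smul (M : I → I → ℝ) (a : ℝ) (W : I → ℝ) (j : I) :
    ipR M (a • W) j = a * ipR M W j := by
  simp only [ipR, Pi.smul_apply, smul_eq_mul, Finset.mul_sum]
  exact Finset.sum_congr rfl fun i _ => by ring

/-- negativity lemma: a nonzero antinef cycle is strictly positive. -/
theorem pos_of_antinef {M : I → I → ℝ} {K g : I → ℤ} {δ : I → ℝ}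
    {deg : (I → ℤ) → I → ℤ} {X : (I → ℤ) → ℝ} (hM : OModel M K g δ deg X) {W : I → ℝ}
    (hW : ∀ j, ipR M W j ≤ 0) (hW0 : W ≠ 0) : ∀ j, 0 < W j := by
  -- nonnegativity
  have hnn : ∀ j, 0 ≤ W j := by
    by_contra hcon
    push Not at hcon
    obtain ⟨j₀, hj₀⟩ := hcon
    set y : I → ℝ := fun i => max (-(W i)) 0 with hy
    have hy0 : y ≠ 0 := by
      intro h
      have := congrFun h j₀
      simp only [hy, Pi.zero_apply] at this
      have h2 : -(W j₀) ≤ 0 := by
        calc -(W j₀) ≤ max (-(W j₀)) 0 := le_max_left _ _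
          _ = 0 := this
      linarith
    have h1 := hM.negdef y hy0
    have h2 : ∑ i, y i * ipR M W i ≤ 0 :=
      Finset.sum_nonpos fun i _ => mul_nonpos_of_nonneg_of_nonpos (le_max_right _ _) (hW i)
    have h3 : ∀ i j, -(M i j * y i * y j) ≤ y i * (M i j * W j) := by
      intro i j
      by_cases hij : i = j
      · subst hij
        rcases le_total (W i) 0 with hw | hw
        · have : y i = -(W i) := max_eq_left (by linarith)
          rw [this]; apply le_of_eq; ring
        · have : y i = 0 := max_eq_right (by linarith)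
          rw [this]; simp
      · have hm : (0 : ℝ) ≤ M i j := by exact_mod_cast hM.off i j hij
        have hyi : 0 ≤ y i := le_max_right _ _
        have hyj : -(W j) ≤ y j := le_max_left _ _
        have : 0 ≤ M i j * y i * (y j + W j) := by
          apply mul_nonneg (mul_nonneg hm hyi); linarith
        nlinarith [this]
    have h4 : -(∑ i, ∑ j, M i j * y i * y j) ≤ ∑ i, y i * ipR M W i := by
      rw [← Finset.sum_neg_distrib]
      refine Finset.sum_le_sum fun i _ => ?_
      rw [← Finset.sum_neg_distrib, ipR, Finset.mul_sum]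
      exact Finset.sum_le_sum fun j _ => h3 i j
    linarith
  by_contra hcon
  push Not at hcon
  obtain ⟨j₀, hj₀⟩ := hcon
  have hj₀' : W j₀ = 0 := le_antisymm hj₀ (hnn j₀)
  set S : Finset I := univ.filter (fun i => W i = 0) with hS
  have hSn : S.Nonempty := ⟨j₀, by simp [hS, hj₀']⟩
  have hSu : S ≠ univ := by
    intro h
    apply hW0
    funext i
    have : i ∈ S := by rw [h]; exact Finset.mem_univ i
    simpa [hS] using this
  obtain ⟨i, hi, l, hl, hil⟩ := hM.conn S hSn hSu
  have hWi : W i = 0 := by simpa [hS] using hi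
  have hWl : 0 < W l := lt_of_le_of_ne (hnn l) (by
    intro h; apply hl; simp [hS, h.symm])
  have hne : i ≠ l := by rintro rfl; exact hl hi
  have h5 : 0 < ipR M W i := by
    have h6 : M i l * W l ≤ ipR M W i := by
      refine Finset.single_le_sum (f := fun l => M i l * W l) (fun k _ => ?_)
        (Finset.mem_univ l)
      by_cases hk : i = k
      · subst hk; simp [hWi]
      · have : (0 : ℝ) ≤ M i k := by exact_mod_cast hM.off i k hk
        exact mul_nonneg this (hnn k)
    have h7 : 0 < M i l * W l := mul_pos (by exact_mod_cast hil) hWl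
    linarith
  linarith [hW i]

/-! ### one step -/

/-- the step lemma: `f = W - K - D`, `f j = 1`. -/
lemma deg_ge {M : I → I → ℝ} {K g : I → ℤ} {δ : I → ℝ}
    {deg : (I → ℤ) → I → ℤ} {X : (I → ℤ) → ℝ} (hM : OModel0 M K g δ deg X)
    {W : I → ℝ} {D : I → ℤ} {j : I} (hj : W j - K j - D j = 1) :
    2 * g j - 2 - ipR M W j + ∑ l ∈ univ.erase j, M j l * (W l - K l - D l) ≤ deg D j := by
  have h3 : (∑ l ∈ univ.erase j, M j l * (W l - K l - D l)) + M j j * (W j - K j - D j)
      = ∑ l, M j l * (W l - K l - D l) := Finset.sum_erase_add _ _ (Finset.mem_univ j)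
  have h4 : ∑ l, M j l * (W l - K l - D l) = ipR M W j - ipR M (toR K) j - ipR M (toR D) j := by
    simp only [ipR, toR]
    rw [← Finset.sum_sub_distrib, ← Finset.sum_sub_distrib]
    exact Finset.sum_congr rfl fun i _ => by ring
  have h5 := hM.adj j
  have h6 := hM.pos D j
  rw [hj, mul_one] at h3
  linarith

lemma good_step {M : I → I → ℝ} {K g : I → ℤ} {δ : I → ℝ}
    {deg : (I → ℤ) → I → ℤ} {X : (I → ℤ) → ℝ} (hM : OModel0 M K g δ deg X) {W : I → ℝ}
    {D : I → ℤ} {j : I} (hW : ipR M W j ≤ 0) (hf : ∀ l, 0 ≤ W l - K l - D l)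
    (hj : W j - K j - D j = 1)
    (h : ipR M W j < 0 ∨ ∃ l, l ≠ j ∧ 0 < M j l ∧ 0 < W l - K l - D l) :
    2 * g j - 2 < deg D j := by
  have h1 := deg_ge hM hj
  have h2 : ∀ l ∈ univ.erase j, 0 ≤ M j l * (W l - K l - D l) := by
    intro l hl
    exact mul_nonneg (hM.off j l (Finset.ne_of_mem_erase hl).symm) (hf l)
  have h3 : (0 : ℝ) ≤ ∑ l ∈ univ.erase j, M j l * (W l - K l - D l) :=
    Finset.sum_nonneg h2
  have h4 : (2 * g j - 2 : ℝ) < deg D j := by
    rcases h with h | ⟨l, hl, hMl, hfl⟩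
    · linarith
    · have h5 : 0 < M j l * (W l - K l - D l) := mul_pos hMl hfl
      have h6 : M j l * (W l - K l - D l) ≤ ∑ l ∈ univ.erase j, M j l * (W l - K l - D l) :=
        Finset.single_le_sum h2 (Finset.mem_erase.2 ⟨hl, Finset.mem_univ l⟩)
      linarith
  exact_mod_cast h4

/-! ### one jump -/

/-- the cycle just before the jump at `W`, with the components of `S` already added. -/
def pre (K : I → ℤ) (W : I → ℝ) (S : Finset I) : I → ℤ :=
  fun l => ⌈W l⌉ - 1 - K l + (if l ∈ S then 1 else 0)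

/-- the cycle `⌊W⌋ - K` (after the jump). -/
def post (K : I → ℤ) (W : I → ℝ) : I → ℤ := fun l => ⌊W l⌋ - K l

/-- rank functions: order in which the integral coordinates jump (large rank first). -/
structure IsRank (M : I → I → ℝ) (W : I → ℝ) (r : I → ℕ) : Prop where
  zero : ∀ l, W l = ⌊W l⌋ → r l = 0 → ipR M W l < 0 ∨ ∃ k, k ≠ l ∧ 0 < M l k ∧ W k ≠ ⌊W k⌋
  succ : ∀ l, W l = ⌊W l⌋ → 0 < r l → ∃ k, k ≠ l ∧ 0 < M l k ∧ (W k ≠ ⌊W k⌋ ∨ r k < r l)

/-- integral coordinates. -/
def TT (W : I → ℝ) : Finset I := univ.filter (fun l => W l = ⌊W l⌋)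

lemma mem_TT {W : I → ℝ} {l : I} : l ∈ TT W ↔ W l = ⌊W l⌋ := by simp [TT]

/-- reachable in `n` steps from the base points. -/
def Rk (M : I → I → ℝ) (W : I → ℝ) : ℕ → I → Prop
  | 0, l => W l = ⌊W l⌋ ∧ (ipR M W l < 0 ∨ ∃ k, k ≠ l ∧ 0 < M l k ∧ W k ≠ ⌊W k⌋)
  | n + 1, l => Rk M W n l ∨ (W l = ⌊W l⌋ ∧ ∃ k, k ≠ l ∧ 0 < M l k ∧ Rk M W n k)

open Classical in
/-- the rank. -/
def rk (M : I → I → ℝ) (W : I → ℝ) (l : I) : ℕ :=
  if h : ∃ n, Rk M W n l then Nat.find h else 0

lemma rk_spec {M : I → I → ℝ} {W : I → ℝ} {l : I} (h : ∃ n, Rk M W n l) :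
    Rk M W (rk M W l) l := by
  classical
  unfold rk; rw [dif_pos h]; exact Nat.find_spec h

lemma rk_le {M : I → I → ℝ} {W : I → ℝ} {l : I} {n : ℕ} (h : Rk M W n l) :
    rk M W l ≤ n := by
  classical
  unfold rk; rw [dif_pos ⟨n, h⟩]; exact Nat.find_min' _ h

/-! ### the class `NC` -/

lemma NC.smul {M : I → I → ℝ} {W : I → ℝ} (h : NC M W) {a : ℝ} (ha : 0 < a) : NC M (a • W) where
  pos l := mul_pos ha (h.pos l)
  anti j := by rw [ipR_smul]; exact mul_nonpos_of_nonneg_of_nonpos ha.le (h.anti j)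
  alt := by
    rcases h.alt with h1 | h1
    · exact Or.inl h1
    · exact Or.inr fun j => by rw [ipR_smul]; exact mul_neg_of_pos_of_neg ha (h1 j)

lemma NC.add {M : I → I → ℝ} {W A : I → ℝ} (h : NC M W) (h1 : ∀ j, ipR M A j ≤ 0)
    (h2 : ∀ l, 0 ≤ A l) : NC M (W + A) where
  pos l := add_pos_of_pos_of_nonneg (h.pos l) (h2 l)
  anti j := by rw [ipR_add]; exact add_nonpos (h.anti j) (h1 j)
  alt := by
    rcases h.alt with h3 | h3
    · exact Or.inl h3
    · exact Or.inr fun j => by rw [ipR_add]; exact add_neg_of_neg_of_nonpos (h3 j) (h1 j)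

theorem exists_rank' {M : I → I → ℝ} {K g : I → ℤ} {δ : I → ℝ}
    {deg : (I → ℤ) → I → ℤ} {X : (I → ℤ) → ℝ} (hM : OModel0 M K g δ deg X) {W : I → ℝ}
    (hW : NC M W) : ∃ r : I → ℕ, IsRank M W r ∧
      ∀ l, W l = ⌊W l⌋ → ipR M W l < 0 → r l = 0 := by
  classical
  have hall : ∀ l, W l = ⌊W l⌋ → ∃ n, Rk M W n l := by
    rcases hW.alt with hneg | hstr
    · by_contra hcon
      push Not at hcon
      obtain ⟨l₀, hl₀, hl₀'⟩ := hcon
      set X : Finset I := univ.filter (fun l => W l = ⌊W l⌋ ∧ ∀ n, ¬ Rk M W n l) with hX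
      have hmem : ∀ l, l ∈ X ↔ (W l = ⌊W l⌋ ∧ ∀ n, ¬ Rk M W n l) := by intro l; simp [hX]
      -- `X` has no neighbours
      have hnb : ∀ i ∈ X, ∀ k, k ∉ X → M i k = 0 := by
        intro i hi k hk
        by_contra hne
        have hi' := (hmem i).1 hi
        have hki : k ≠ i := by rintro rfl; exact hk hi
        have hpos : 0 < M i k := lt_of_le_of_ne (hM.off i k (Ne.symm hki)) (Ne.symm hne)
        by_cases hkT : W k = ⌊W k⌋
        · have : ∃ n, Rk M W n k := by
            by_contra h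
            push Not at h
            exact hk ((hmem k).2 ⟨hkT, h⟩)
          obtain ⟨n, hn⟩ := this
          exact hi'.2 (n + 1) (Or.inr ⟨hi'.1, k, hki, hpos, hn⟩)
        · exact hi'.2 0 ⟨hi'.1, Or.inr ⟨k, hki, hpos, hkT⟩⟩
      have h0 : ∀ l ∈ X, ipR M W l = 0 := by
        intro l hl
        rw [hmem] at hl
        have h3 : ¬ ipR M W l < 0 := fun h => hl.2 0 ⟨hl.1, Or.inl h⟩
        exact le_antisymm (hW.anti l) (not_lt.1 h3)
      set y : I → ℝ := fun l => if l ∈ X then W l else 0 with hy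
      have hy0 : y ≠ 0 := by
        intro h
        have h2 := congrFun h l₀
        have h3 : l₀ ∈ X := (hmem l₀).2 ⟨hl₀, hl₀'⟩
        simp only [hy, if_pos h3, Pi.zero_apply] at h2
        have := hW.pos l₀
        rw [h2] at this
        exact lt_irrefl _ this
      have h1 := hneg y hy0
      have h2 : ∑ i, ∑ j, M i j * y i * y j = 0 := by
        apply Finset.sum_eq_zero
        intro i _
        by_cases hi : i ∈ X
        · have : ∑ j, M i j * y i * y j = W i * ipR M W i := by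
            rw [ipR, Finset.mul_sum]
            refine Finset.sum_congr rfl fun j _ => ?_
            by_cases hj : j ∈ X
            · simp only [hy, if_pos hi, if_pos hj]; ring
            · simp only [hy, if_neg hj, hnb i hi j hj]; ring
          rw [this, h0 i hi, mul_zero]
        · apply Finset.sum_eq_zero
          intro j _
          simp only [hy, if_neg hi]; ring
      linarith
    · intro l hl
      exact ⟨0, hl, Or.inl (hstr l)⟩
  refine ⟨rk M W, ⟨?_, ?_⟩, fun l hl hl' => Nat.le_zero.1 (rk_le (n := 0) ⟨hl, Or.inl hl'⟩)⟩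
  · intro l hl hr
    have h1 := rk_spec (hall l hl)
    rw [hr] at h1
    exact h1.2
  · intro l hl hr
    have h1 := rk_spec (hall l hl)
    obtain ⟨n, hn⟩ : ∃ n, rk M W l = n + 1 := ⟨rk M W l - 1, by omega⟩
    rw [hn] at h1
    rcases h1 with h3 | ⟨_, k, hk, hMk, hRk⟩
    · have := rk_le h3
      omega
    · refine ⟨k, hk, hMk, Or.inr ?_⟩
      have := rk_le hRk
      omega

theorem exists_rank {M : I → I → ℝ} {K g : I → ℤ} {δ : I → ℝ}
    {deg : (I → ℤ) → I → ℤ} {X : (I → ℤ) → ℝ} (hM : OModel0 M K g δ deg X) {W : I → ℝ}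
    (hW : NC M W) : ∃ r : I → ℕ, IsRank M W r :=
  let ⟨r, hr, _⟩ := exists_rank' hM hW; ⟨r, hr⟩

/-- admissible sets of already added components. -/
structure Adm (W : I → ℝ) (r : I → ℕ) (S : Finset I) : Prop where
  sub : ∀ l ∈ S, W l = ⌊W l⌋
  ord : ∀ l ∈ S, ∀ j, W j = ⌊W j⌋ → j ∉ S → r j ≤ r l

lemma pre_insert (K : I → ℤ) (W : I → ℝ) {S : Finset I} {j : I} (hj : j ∉ S) :
    pre K W (insert j S) = pre K W S + ee j := by
  funext l
  simp only [pre, ee, Pi.add_apply, Finset.mem_insert]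
  by_cases h : l = j
  · subst h; simp [hj]
  · simp [h]

lemma pre_TT (K : I → ℤ) (W : I → ℝ) : pre K W (TT W) = post K W := by
  funext l
  simp only [pre, post, mem_TT]
  by_cases h : W l = ⌊W l⌋
  · have : ⌈W l⌉ = ⌊W l⌋ := by
      rw [Int.ceil_eq_iff]
      exact ⟨by linarith, h.le⟩
    rw [if_pos h, this]; ring
  · have h1 : ⌊W l⌋ < W l := lt_of_le_of_ne (Int.floor_le _) (fun e => h e.symm)
    have : ⌈W l⌉ = ⌊W l⌋ + 1 := by
      rw [Int.ceil_eq_iff]
      refine ⟨by push_cast; linarith, by push_cast; exact (Int.lt_floor_add_one _).le⟩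
    simp only [if_neg h, this]; ring

section counting

variable {M : I → I → ℝ} {K g : I → ℤ} {δ : I → ℝ} {deg : (I → ℤ) → I → ℤ} {X : (I → ℤ) → ℝ}
  {c : (I → ℤ) → ℤ}

/-- `colength - χ`. -/
def uu (X : (I → ℤ) → ℝ) (c : (I → ℤ) → ℤ) (D : I → ℤ) : ℝ := c D - X D

/-- (H1) the upper bound of a step (injection into the sections on `E_j` and Riemann-Roch). -/
def StepBound (g : I → ℤ) (deg : (I → ℤ) → I → ℤ) (c : (I → ℤ) → ℤ) : Prop :=
  ∀ D j, 2 * g j - 2 < deg D j → c (D + ee j) - c D ≤ deg D j + 1 - g j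

lemma uu_step (hM : OModel0 M K g δ deg X) (h1 : StepBound g deg c) {D : I → ℤ} {j : I}
    (h : 2 * g j - 2 < deg D j) :
    uu X c (D + ee j) ≤ uu X c D ∧
      (uu X c (D + ee j) = uu X c D → c (D + ee j) - c D = deg D j + 1 - g j) := by
  have h2 : ((c (D + ee j) - c D : ℤ) : ℝ) ≤ ((deg D j + 1 - g j : ℤ) : ℝ) := by
    exact_mod_cast h1 D j h
  have h3 := hM.pot D j
  push_cast at h2
  unfold uu
  constructor
  · linarith
  · intro h4
    have : ((c (D + ee j) - c D : ℤ) : ℝ) = ((deg D j + 1 - g j : ℤ) : ℝ) := by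
      push_cast; linarith
    exact_mod_cast this

lemma pre_frac (K : I → ℤ) {W : I → ℝ} {S : Finset I} (hS : ∀ l ∈ S, W l = ⌊W l⌋) (l : I) :
    (l ∈ S → W l - K l - pre K W S l = 0) ∧ (l ∉ S → 0 < W l - K l - pre K W S l) ∧
    (l ∉ S → W l = ⌊W l⌋ → W l - K l - pre K W S l = 1) := by
  refine ⟨fun h => ?_, fun h => ?_, fun h h' => ?_⟩
  · have h1 : W l = ⌊W l⌋ := hS l h
    have h2 : ⌈W l⌉ = ⌊W l⌋ := by
      rw [Int.ceil_eq_iff]
      exact ⟨by linarith, h1.le⟩
    simp only [pre, if_pos h, h2]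
    push_cast
    linarith
  · simp only [pre, if_neg h]
    have := Int.ceil_lt_add_one (W l)
    push_cast
    linarith
  · have h2 : ⌈W l⌉ = ⌊W l⌋ := by
      rw [Int.ceil_eq_iff]
      exact ⟨by linarith, h'.le⟩
    simp only [pre, if_neg h, h2]
    push_cast
    linarith

lemma adm_step (hM : OModel0 M K g δ deg X) {W : I → ℝ} (hW : ∀ j, ipR M W j ≤ 0) {r : I → ℕ}
    (hr : IsRank M W r) {S : Finset I} (hS : Adm W r S) {j : I} (hj : W j = ⌊W j⌋) (hjS : j ∉ S) :
    2 * g j - 2 < deg (pre K W S) j := by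
  refine good_step hM (hW j) (fun l => ?_) ((pre_frac K hS.sub j).2.2 hjS hj) ?_
  · by_cases hl : l ∈ S
    · exact ((pre_frac K hS.sub l).1 hl).ge
    · exact ((pre_frac K hS.sub l).2.1 hl).le
  · rcases Nat.eq_zero_or_pos (r j) with h0 | h0
    · rcases hr.zero j hj h0 with h | ⟨k, hk, hMk, hWk⟩
      · exact Or.inl h
      · exact Or.inr ⟨k, hk, hMk, (pre_frac K hS.sub k).2.1 fun hkS => hWk (hS.sub k hkS)⟩
    · obtain ⟨k, hk, hMk, h⟩ := hr.succ j hj h0
      refine Or.inr ⟨k, hk, hMk, (pre_frac K hS.sub k).2.1 fun hkS => ?_⟩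
      rcases h with h | h
      · exact h (hS.sub k hkS)
      · exact absurd (hS.ord k hkS j hj hjS) (not_le.2 h)

lemma jump_up (hM : OModel0 M K g δ deg X) (h1 : StepBound g deg c) {W : I → ℝ}
    (hW : ∀ j, ipR M W j ≤ 0) {r : I → ℕ} (hr : IsRank M W r) :
    ∀ n : ℕ, ∀ S : Finset I, Adm W r S → (TT W \ S).card = n →
      uu X c (post K W) ≤ uu X c (pre K W S) := by
  intro n
  induction n with
  | zero =>
    intro S hS hn
    have h2 : TT W \ S = ∅ := Finset.card_eq_zero.1 hn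
    have h3 : TT W ⊆ S := Finset.sdiff_eq_empty_iff_subset.1 h2
    have h4 : S ⊆ TT W := fun l hl => mem_TT.2 (hS.sub l hl)
    rw [Finset.Subset.antisymm h4 h3, pre_TT]
  | succ n ih =>
    intro S hS hn
    have hne : (TT W \ S).Nonempty := Finset.card_pos.1 (by omega)
    obtain ⟨j, hj, hmax⟩ := Finset.exists_max_image _ r hne
    have hj1 : W j = ⌊W j⌋ := mem_TT.1 (Finset.mem_sdiff.1 hj).1
    have hj2 : j ∉ S := (Finset.mem_sdiff.1 hj).2
    have hadm : Adm W r (insert j S) := by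
      constructor
      · intro l hl
        rcases Finset.mem_insert.1 hl with h | h
        · rw [h]; exact hj1
        · exact hS.sub l h
      · intro l hl i hi hiS
        have hiS' : i ∉ S := fun h => hiS (Finset.mem_insert_of_mem h)
        rcases Finset.mem_insert.1 hl with h | h
        · rw [h]
          exact hmax i (Finset.mem_sdiff.2 ⟨mem_TT.2 hi, hiS'⟩)
        · exact hS.ord l h i hi hiS'
    have hcard : (TT W \ insert j S).card = n := by
      have : TT W \ insert j S = (TT W \ S).erase j := by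
        ext l; simp only [Finset.mem_sdiff, Finset.mem_insert, Finset.mem_erase]; tauto
      rw [this, Finset.card_erase_of_mem hj, hn]; rfl
    have h2 := ih _ hadm hcard
    rw [pre_insert K W hj2] at h2
    exact h2.trans (uu_step hM h1 (adm_step hM hW hr hS hj1 hj2)).1

lemma jump_down (hM : OModel0 M K g δ deg X) (h1 : StepBound g deg c) {W : I → ℝ}
    (hW : ∀ j, ipR M W j ≤ 0) {r : I → ℕ} (hr : IsRank M W r) :
    ∀ n : ℕ, ∀ S : Finset I, Adm W r S → S.card = n →
      uu X c (pre K W S) ≤ uu X c (pre K W ∅) := by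
  intro n
  induction n with
  | zero =>
    intro S hS hn
    rw [Finset.card_eq_zero.1 hn]
  | succ n ih =>
    intro S hS hn
    have hne : S.Nonempty := Finset.card_pos.1 (by omega)
    obtain ⟨j, hj, hmin⟩ := Finset.exists_min_image _ r hne
    have hj1 : W j = ⌊W j⌋ := hS.sub j hj
    have hadm : Adm W r (S.erase j) := by
      constructor
      · intro l hl
        exact hS.sub l (Finset.mem_of_mem_erase hl)
      · intro l hl i hi hiS
        by_cases hij : i = j
        · rw [hij]; exact hmin l (Finset.mem_of_mem_erase hl)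
        · exact hS.ord l (Finset.mem_of_mem_erase hl) i hi
            (fun h => hiS (Finset.mem_erase.2 ⟨hij, h⟩))
    have hcard : (S.erase j).card = n := by rw [Finset.card_erase_of_mem hj, hn]; rfl
    have h2 := ih _ hadm hcard
    have hjn : j ∉ S.erase j := Finset.notMem_erase j S
    have h3 : pre K W S = pre K W (S.erase j) + ee j := by
      rw [← pre_insert K W hjn, Finset.insert_erase hj]
    rw [h3]
    exact (uu_step hM h1 (adm_step hM hW hr hadm hj1 hjn)).1.trans h2

lemma adm_empty (W : I → ℝ) (r : I → ℕ) : Adm W r ∅ :=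
  ⟨fun _ h => absurd h (Finset.notMem_empty _), fun _ h => absurd h (Finset.notMem_empty _)⟩

lemma jump (hM : OModel0 M K g δ deg X) (h1 : StepBound g deg c) {W : I → ℝ}
    (hW : NC M W) :
    uu X c (post K W) ≤ uu X c (pre K W ∅) := by
  obtain ⟨r, hr⟩ := exists_rank hM hW
  exact jump_up hM h1 hW.anti hr _ ∅ (adm_empty W r) rfl

lemma post_add_int (K A : I → ℤ) (W : I → ℝ) :
    post K (fun l => W l + A l) = post K W + A := by
  funext l
  simp only [post, Pi.add_apply, Int.floor_add_intCast]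
  ring

lemma seg (hM : OModel0 M K g δ deg X) (h1 : StepBound g deg c) :
    ∀ n : ℕ, ∀ W₀ W₁ : I → ℝ, NC M W₀ → NC M W₁ →
      (∀ l, W₀ l < W₁ l) → (∑ l, (⌈W₁ l⌉ - 1 - ⌊W₀ l⌋)).toNat ≤ n →
      uu X c (pre K W₁ ∅) ≤ uu X c (post K W₀) := by
  intro n
  induction n with
  | zero =>
    intro W₀ W₁ hW₀ hW₁ hlt hn
    have hd : ∀ l, 0 ≤ ⌈W₁ l⌉ - 1 - ⌊W₀ l⌋ := by
      intro l
      have : ⌊W₀ l⌋ < ⌈W₁ l⌉ := by
        rw [Int.lt_ceil]
        exact lt_of_le_of_lt (Int.floor_le _) (hlt l)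
      omega
    have hs : ∑ l, (⌈W₁ l⌉ - 1 - ⌊W₀ l⌋) = 0 := by
      have := Finset.sum_nonneg (fun l (_ : l ∈ univ) => hd l)
      omega
    have h0 : ∀ l, ⌈W₁ l⌉ - 1 - ⌊W₀ l⌋ = 0 := fun l =>
      (Finset.sum_eq_zero_iff_of_nonneg (fun l _ => hd l)).1 hs l (Finset.mem_univ l)
    have : pre K W₁ ∅ = post K W₀ := by
      funext l
      have := h0 l
      simp only [pre, post, Finset.notMem_empty, if_false]
      omega
    rw [this]
  | succ n ih =>
    intro W₀ W₁ hW₀ hW₁ hlt hn
    have hd : ∀ l, 0 ≤ ⌈W₁ l⌉ - 1 - ⌊W₀ l⌋ := by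
      intro l
      have : ⌊W₀ l⌋ < ⌈W₁ l⌉ := by
        rw [Int.lt_ceil]
        exact lt_of_le_of_lt (Int.floor_le _) (hlt l)
      omega
    by_cases hall : ∀ l, ⌈W₁ l⌉ - 1 - ⌊W₀ l⌋ = 0
    · have : pre K W₁ ∅ = post K W₀ := by
        funext l
        have := hall l
        simp only [pre, post, Finset.notMem_empty, if_false]
        omega
      rw [this]
    · push Not at hall
      obtain ⟨l₁, hl₁⟩ := hall
      set B : Finset I := univ.filter (fun l => 0 < ⌈W₁ l⌉ - 1 - ⌊W₀ l⌋) with hB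
      have hmem : ∀ l, l ∈ B ↔ 0 < ⌈W₁ l⌉ - 1 - ⌊W₀ l⌋ := by intro l; simp [hB]
      have hBn : B.Nonempty := ⟨l₁, (hmem l₁).2 (lt_of_le_of_ne (hd l₁) (Ne.symm hl₁))⟩
      obtain ⟨l₀, hl₀, hmin⟩ := Finset.exists_min_image B
        (fun l => ((⌊W₀ l⌋ : ℝ) + 1 - W₀ l) / (W₁ l - W₀ l)) hBn
      set t : ℝ := ((⌊W₀ l₀⌋ : ℝ) + 1 - W₀ l₀) / (W₁ l₀ - W₀ l₀) with ht
      have hgt : ∀ l, l ∈ B → (⌊W₀ l⌋ : ℝ) + 1 < W₁ l := by
        intro l hl
        have h2 := (hmem l).1 hl
        have h3 : ⌊W₀ l⌋ + 1 < ⌈W₁ l⌉ := by omega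
        have := Int.lt_ceil.1 h3
        exact_mod_cast this
      have hpos' : ∀ l, 0 < W₁ l - W₀ l := fun l => by linarith [hlt l]
      have ht0 : 0 < t := by
        apply div_pos _ (hpos' l₀)
        have := Int.lt_floor_add_one (W₀ l₀)
        linarith
      have ht1 : t < 1 := by
        rw [ht, div_lt_one (hpos' l₀)]
        linarith [hgt l₀ hl₀]
      set W : I → ℝ := fun l => W₀ l + t * (W₁ l - W₀ l) with hWdef
      have hWlt : ∀ l, W₀ l < W l := fun l => by
        have := mul_pos ht0 (hpos' l)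
        simp only [hWdef]; linarith
      have hWlt1 : ∀ l, W l < W₁ l := fun l => by
        have := mul_lt_of_lt_one_left (hpos' l) ht1
        simp only [hWdef]; linarith
      have hWle : ∀ l, W l ≤ ⌊W₀ l⌋ + 1 := by
        intro l
        by_cases hl : l ∈ B
        · have h2 : t ≤ ((⌊W₀ l⌋ : ℝ) + 1 - W₀ l) / (W₁ l - W₀ l) := hmin l hl
          have h3 := (le_div_iff₀ (hpos' l)).1 h2
          simp only [hWdef]; linarith
        · have h2 : ⌈W₁ l⌉ - 1 - ⌊W₀ l⌋ = 0 := by
            have h3 : ¬ (0 < ⌈W₁ l⌉ - 1 - ⌊W₀ l⌋) := fun h => hl ((hmem l).2 h)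
            have := hd l; omega
          have h3 : W₁ l ≤ ⌈W₁ l⌉ := Int.le_ceil _
          have h4 : ⌈W₁ l⌉ = ⌊W₀ l⌋ + 1 := by omega
          rw [h4] at h3
          push_cast at h3
          linarith [hWlt1 l]
      have hWNC : NC M W := by
        have : W = (1 - t) • W₀ + t • W₁ := by
          funext l; simp only [hWdef, Pi.add_apply, Pi.smul_apply, smul_eq_mul]; ring
        rw [this]
        have h2 := hW₁.smul ht0
        exact (hW₀.smul (sub_pos.2 ht1)).add h2.anti fun l => (h2.pos l).le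
      have hpre : pre K W ∅ = post K W₀ := by
        funext l
        have : ⌈W l⌉ = ⌊W₀ l⌋ + 1 := by
          rw [Int.ceil_eq_iff]
          refine ⟨?_, by push_cast; exact hWle l⟩
          push_cast
          have := Int.floor_le (W₀ l)
          linarith [hWlt l]
        simp only [pre, post, Finset.notMem_empty, if_false, this]
        ring
      have hj := jump hM h1 hWNC
      rw [hpre] at hj
      refine (ih W W₁ hWNC hW₁ hWlt1 ?_).trans hj
      have hmono : ∀ l, ⌊W₀ l⌋ ≤ ⌊W l⌋ := fun l => Int.floor_le_floor (hWlt l).le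
      have hstrict : ⌊W₀ l₀⌋ < ⌊W l₀⌋ := by
        have : W l₀ = ⌊W₀ l₀⌋ + 1 := by
          simp only [hWdef, ht]
          rw [div_mul_cancel₀ _ (hpos' l₀).ne']
          ring
        rw [this]
        have : ⌊((⌊W₀ l₀⌋ : ℝ) + 1)⌋ = ⌊W₀ l₀⌋ + 1 := by
          have := Int.floor_intCast (R := ℝ) (⌊W₀ l₀⌋ + 1)
          push_cast at this
          exact this
        rw [this]; omega
      have hlt' : ∑ l, (⌈W₁ l⌉ - 1 - ⌊W l⌋) < ∑ l, (⌈W₁ l⌉ - 1 - ⌊W₀ l⌋) := by
        apply Finset.sum_lt_sum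
        · intro l _; have := hmono l; omega
        · exact ⟨l₀, Finset.mem_univ _, by omega⟩
      have hnn : 0 ≤ ∑ l, (⌈W₁ l⌉ - 1 - ⌊W l⌋) := by
        apply Finset.sum_nonneg
        intro l _
        have : ⌊W l⌋ < ⌈W₁ l⌉ := by
          rw [Int.lt_ceil]
          exact lt_of_le_of_lt (Int.floor_le _) (hWlt1 l)
        omega
      omega

/-- (H2) the anchor: division by a function `x` with `v(x) = A`. -/
def Anchor (M : I → I → ℝ) (X : (I → ℤ) → ℝ) (c : (I → ℤ) → ℤ) (A : I → ℤ) : Prop :=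
  (∀ j, ipR M (toR A) j ≤ 0) ∧ (∀ l, 0 < A l) ∧ ∀ D, uu X c D ≤ uu X c (D + A)

/-- **every step of a computation sequence along antinef real cycles is exact** (version without
connectedness). -/
theorem exact_step0 (hM : OModel0 M K g δ deg X) (h1 : StepBound g deg c) {A : I → ℤ}
    (h2 : Anchor M X c A) {W : I → ℝ} (hW : NC M W) {r : I → ℕ} (hr : IsRank M W r)
    {S : Finset I} (hS : Adm W r S) {j : I} (hj : W j = ⌊W j⌋) (hjS : j ∉ S)
    (hmax : ∀ i, W i = ⌊W i⌋ → i ∉ S → r i ≤ r j) :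
    2 * g j - 2 < deg (pre K W S) j ∧
    c (pre K W S + ee j) - c (pre K W S) = deg (pre K W S) j + 1 - g j := by
  obtain ⟨hA, hApos, hAnch⟩ := h2
  have hWpos := hW.pos
  have hsum : 0 < ∑ l, W l := by
    apply Finset.sum_pos (fun l _ => hWpos l) ⟨j, Finset.mem_univ j⟩
  set ε : ℝ := 1 / (1 + ∑ l, W l) with hε
  have hε0 : 0 < ε := by positivity
  have hε1 : ε < 1 := by
    rw [hε, div_lt_one (by linarith)]; linarith
  have hεW : ∀ l, ε * W l < A l := by
    intro l
    have h3 : W l ≤ ∑ l, W l :=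
      Finset.single_le_sum (fun k _ => (hWpos k).le) (Finset.mem_univ l)
    have h4 : (1 : ℝ) ≤ A l := by exact_mod_cast hApos l
    have h5 : ε * W l < 1 := by
      rw [hε, div_mul_eq_mul_div, one_mul, div_lt_one (by linarith)]
      linarith
    linarith
  set W₀ : I → ℝ := (1 - ε) • W with hW₀
  have hW₀n : NC M W₀ := hW.smul (sub_pos.2 hε1)
  have hW₀v : ∀ l, W₀ l = (1 - ε) * W l := fun l => rfl
  have hlt0 : ∀ l, W₀ l < W l := fun l => by
    rw [hW₀v]; have := mul_pos hε0 (hWpos l); linarith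
  set W₁ : I → ℝ := fun l => W₀ l + A l with hW₁
  have hW₁n : NC M W₁ := hW₀n.add hA fun l => by
    have : (1 : ℝ) ≤ A l := by exact_mod_cast hApos l
    change (0 : ℝ) ≤ (A l : ℝ)
    linarith
  have hlt1 : ∀ l, W l < W₁ l := fun l => by
    simp only [hW₁]; rw [hW₀v]; linarith [hεW l]
  -- the chain
  have c1 := seg hM h1 _ W₀ W hW₀n hW hlt0 le_rfl
  have c2 := jump_down hM h1 hW.anti hr _ S hS rfl
  have hgood := adm_step hM hW.anti hr hS hj hjS
  have c3 := uu_step hM h1 hgood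
  have hadm : Adm W r (insert j S) := by
    constructor
    · intro l hl
      rcases Finset.mem_insert.1 hl with h | h
      · rw [h]; exact hj
      · exact hS.sub l h
    · intro l hl i hi hiS
      have hiS' : i ∉ S := fun h => hiS (Finset.mem_insert_of_mem h)
      rcases Finset.mem_insert.1 hl with h | h
      · rw [h]; exact hmax i hi hiS'
      · exact hS.ord l h i hi hiS'
  have c4 := jump_up hM h1 hW.anti hr _ (insert j S) hadm rfl
  rw [pre_insert K W hjS] at c4
  have c5 := seg hM h1 _ W W₁ hW hW₁n hlt1 le_rfl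
  have c6 := jump hM h1 hW₁n
  have c7 := hAnch (post K W₀)
  have c8 : post K W₁ = post K W₀ + A := post_add_int K A W₀
  rw [c8] at c6
  refine ⟨hgood, c3.2 (le_antisymm c3.1 ?_)⟩
  exact c2.trans (c1.trans (c7.trans (c6.trans (c5.trans c4))))

/-- a nonzero antinef cycle of a connected model is of class `NC`. -/
lemma OModel.nc (hM : OModel M K g δ deg X) {W : I → ℝ} (hW : ∀ j, ipR M W j ≤ 0) (hW0 : W ≠ 0) :
    NC M W := ⟨pos_of_antinef hM hW hW0, hW, Or.inl hM.negdef⟩

/-- **every step of a computation sequence along antinef real cycles is exact.** -/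
theorem exact_step (hM : OModel M K g δ deg X) (h1 : StepBound g deg c) {A : I → ℤ}
    (h2 : Anchor M X c A)
    {W : I → ℝ} (hW : ∀ j, ipR M W j ≤ 0) (hW0 : W ≠ 0) {r : I → ℕ} (hr : IsRank M W r)
    {S : Finset I} (hS : Adm W r S) {j : I} (hj : W j = ⌊W j⌋) (hjS : j ∉ S)
    (hmax : ∀ i, W i = ⌊W i⌋ → i ∉ S → r i ≤ r j) :
    2 * g j - 2 < deg (pre K W S) j ∧
    c (pre K W S + ee j) - c (pre K W S) = deg (pre K W S) j + 1 - g j :=
  exact_step0 hM.toOModel0 h1 h2 (hM.nc hW hW0) hr hS hj hjS hmax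

end counting

end Vale.Agent.P298.H471
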