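import Vale.Agent.P298.H471.Path

/-!
# The two applications (v) of the exact step theorem
-/

set_option linter.unusedSectionVars false

noncomputable section

namespace Vale.Agent.P298.H471

open Finset

variable {I : Type*} [Fintype I] [DecidableEq I]
variable {M : I → I → ℝ} {K g : I → ℤ} {δ : I → ℝ} {deg : (I → ℤ) → I → ℤ} {X : (I → ℤ) → ℝ}
  {c : (I → ℤ) → ℤ}

/-- the obstacle solution `z` (the antinef cycle `Z'`), `b = -1 - K`, and an integral multiple
`Z = m z` which is Cartier at the nodes (`cart`). -/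
structure ZData (M : I → I → ℝ) (K : I → ℤ) (deg : (I → ℤ) → I → ℤ) (z : I → ℝ) (m : ℕ)
    (Z : I → ℤ) : Prop where
  anti : ∀ j, ipR M z j ≤ 0
  pos : ∀ l, 0 < z l
  ge : ∀ l, ((-1 - K l : ℤ) : ℝ) ≤ z l
  compl : ∀ j, ipR M z j < 0 → z j = ((-1 - K j : ℤ) : ℝ)
  hm : 0 < m
  int : ∀ l, (Z l : ℝ) = m * z l
  cart : ∀ (n : ℕ) (D : I → ℤ) (j : I), (∀ l, D l ≤ n * Z l) → D j = n * Z j →
    -(n * ipR M (toR Z) j) ≤ deg D j

lemma ipR_toR_Z {z : I → ℝ} {m : ℕ} {Z : I → ℤ} (hZ : ZData M K deg z m Z) (j : I) :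
    ipR M (toR Z) j = m * ipR M z j := by
  simp only [ipR, toR, Finset.mul_sum]
  exact Finset.sum_congr rfl fun l _ => by rw [hZ.int]; ring

/-- **(A)** the exact step on a positive component. -/
theorem exact_pos (hM : OModel M K g δ deg X) (h1 : StepBound g deg c) {A : I → ℤ}
    (h2 : Anchor M X c A) {z : I → ℝ} {m : ℕ} {Z : I → ℤ} (hZ : ZData M K deg z m Z)
    {n : ℕ} (hn : 2 ≤ n * m) {j : I} (hj : ipR M z j < 0) :
    ∃ D : I → ℤ, (∀ l, ipR M z l < 0 → D l = n * Z l) ∧ (∀ l, D l ≤ n * Z l + 1) ∧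
      2 * g j - 2 < deg D j ∧
      (2 * g j - 2 - (n * m - 1) * ipR M z j : ℝ) ≤ deg D j ∧
      c (D + ee j) - c D = deg D j + 1 - g j := by
  have hnm : (2 : ℝ) ≤ (n : ℝ) * m := by exact_mod_cast hn
  set W : I → ℝ := ((n : ℝ) * m - 1) • z with hWd
  have hWv : ∀ l, W l = (n : ℝ) * m * z l - z l := fun l => by
    simp only [hWd, Pi.smul_apply, smul_eq_mul]; ring
  have hWip : ∀ l, ipR M W l = ((n : ℝ) * m - 1) * ipR M z l := fun l => by
    rw [hWd, ipR_smul]
  have hWa : ∀ l, ipR M W l ≤ 0 := fun l => by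
    rw [hWip]; exact mul_nonpos_of_nonneg_of_nonpos (by linarith) (hZ.anti l)
  have hWpos : ∀ l, 0 < W l := fun l => by
    simp only [hWd, Pi.smul_apply, smul_eq_mul]
    exact mul_pos (by linarith) (hZ.pos l)
  have hW0 : W ≠ 0 := by
    intro h
    have h3 := hWpos j
    rw [h] at h3
    exact lt_irrefl _ h3
  obtain ⟨r, hr, hr0⟩ := exists_rank' hM.toOModel0 (hM.nc hWa hW0)
  have hint : ∀ l, ipR M z l < 0 → W l = ((n * Z l - (-1 - K l) : ℤ) : ℝ) := by
    intro l hl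
    rw [hWv]
    push_cast
    rw [hZ.int]
    have := hZ.compl l hl
    push_cast at this
    linarith
  have hfl : ∀ l, ipR M z l < 0 → W l = ⌊W l⌋ := by
    intro l hl
    rw [hint l hl, Int.floor_intCast]
  have hr0' : ∀ l, ipR M z l < 0 → r l = 0 := by
    intro l hl
    apply hr0 l (hfl l hl)
    rw [hWip]
    exact mul_neg_of_pos_of_neg (by linarith) hl
  set S : Finset I := (TT W).filter (fun l => 0 < r l) with hS
  have hSmem : ∀ l, l ∈ S ↔ (W l = ⌊W l⌋ ∧ 0 < r l) := by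
    intro l; simp only [hS, Finset.mem_filter, mem_TT]
  have hadm : Adm W r S := by
    constructor
    · intro l hl; exact ((hSmem l).1 hl).1
    · intro l hl i hi hiS
      have : ¬ 0 < r i := fun h => hiS ((hSmem i).2 ⟨hi, h⟩)
      omega
  have hjS : j ∉ S := fun h => by
    have := ((hSmem j).1 h).2
    rw [hr0' j hj] at this
    exact lt_irrefl _ this
  have hmax : ∀ i, W i = ⌊W i⌋ → i ∉ S → r i ≤ r j := by
    intro i hi hiS
    have : ¬ 0 < r i := fun h => hiS ((hSmem i).2 ⟨hi, h⟩)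
    omega
  obtain ⟨hd, he⟩ := exact_step hM h1 h2 hWa hW0 hr hadm (hfl j hj) hjS hmax
  refine ⟨pre K W S, ?_, ?_, hd, ?_, he⟩
  · intro l hl
    have hlS : l ∉ S := fun h => by
      have := ((hSmem l).1 h).2
      rw [hr0' l hl] at this
      exact lt_irrefl _ this
    simp only [pre, if_neg hlS]
    rw [hint l hl, Int.ceil_intCast]
    ring
  · intro l
    have h3 : ⌈W l⌉ ≤ n * Z l - (-1 - K l) := by
      rw [Int.ceil_le]
      push_cast
      rw [hWv, hZ.int]
      have := hZ.ge l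
      push_cast at this
      linarith
    simp only [pre]
    split_ifs <;> omega
  · have h3 := deg_ge hM.toOModel0 (W := W) (D := pre K W S) (j := j)
      ((pre_frac K hadm.sub j).2.2 hjS (hfl j hj))
    have h4 : (0 : ℝ) ≤ ∑ l ∈ univ.erase j, M j l * (W l - K l - pre K W S l) := by
      apply Finset.sum_nonneg
      intro l hl
      refine mul_nonneg (hM.off j l (Finset.ne_of_mem_erase hl).symm) ?_
      by_cases hlS : l ∈ S
      · exact ((pre_frac K hadm.sub l).1 hlS).ge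
      · exact ((pre_frac K hadm.sub l).2.1 hlS).le
    rw [hWip] at h3
    linarith

/-- **(B)** the exact step on a null piece `Γ`. -/
theorem exact_null (hM : OModel M K g δ deg X) (hg : ∀ j, 0 ≤ g j) (h1 : StepBound g deg c)
    {A : I → ℤ} (h2 : Anchor M X c A) {z : I → ℝ} {m : ℕ} {Z : I → ℤ}
    (hZ : ZData M K deg z m Z) {Γ : Finset I} (hΓ : Γ.Nonempty) (hΓ0 : ∀ l ∈ Γ, ipR M z l = 0)
    {G : I → ℝ} (hG0 : ∀ l, l ∉ Γ → G l = 0) (hGpos : ∀ l ∈ Γ, 0 < G l)
    (hGΓ : ∀ l, ipR M z l = 0 → ipR M G l ≤ 0) :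
    ∃ n₀ : ℕ, ∀ n : ℕ, n₀ ≤ n → ∃ j ∈ Γ, ∃ D : I → ℤ, (∀ l, ipR M z l < 0 → D l = n * Z l) ∧
      (∀ l, D l ≤ n * Z l) ∧ D j = n * Z j ∧ 0 ≤ deg D j ∧
      2 * g j - 2 < deg D j ∧ 
      c (D + ee j) - c D = deg D j + 1 - g j ∧ 1 ≤ c (D + ee j) - c D := by
  -- small ε
  have hsum : 0 < ∑ l, z l := by
    obtain ⟨l, _⟩ := hΓ
    exact Finset.sum_pos (fun l _ => hZ.pos l) ⟨l, Finset.mem_univ l⟩
  set ε : ℝ := 1 / (1 + ∑ l, z l) with hε
  have hε0 : 0 < ε := by positivity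
  have hε1 : ε < 1 := by
    rw [hε, div_lt_one (by linarith)]; linarith
  have hεz : ∀ l, ε * z l < 1 := by
    intro l
    have h3 : z l ≤ ∑ l, z l :=
      Finset.single_le_sum (fun k _ => (hZ.pos k).le) (Finset.mem_univ l)
    rw [hε, div_mul_eq_mul_div, one_mul, div_lt_one (by linarith)]
    linarith
  set bb : I → ℤ := fun l => -1 - K l with hbb
  have hge : ∀ l, (bb l : ℝ) ≤ z l := hZ.ge
  -- the critical time
  obtain ⟨l₀, hl₀, hmin⟩ := Finset.exists_min_image Γ
    (fun l => (z l - bb l + ε * z l) / G l) hΓ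
  set t : ℝ := (z l₀ - bb l₀ + ε * z l₀) / G l₀ with ht
  have ht0 : 0 < t := by
    apply div_pos _ (hGpos l₀ hl₀)
    have := mul_pos hε0 (hZ.pos l₀)
    linarith [hge l₀]
  -- the number n₀
  obtain ⟨B, hB⟩ : ∃ B : ℕ, ∀ l, ipR M z l < 0 → t * ipR M G l ≤ B * (-ipR M z l) := by
    have h3 : ∀ l, ∃ B : ℕ, ipR M z l < 0 → t * ipR M G l ≤ B * (-ipR M z l) := by
      intro l
      by_cases hl : ipR M z l < 0
      · obtain ⟨B, hB⟩ := exists_nat_ge (t * ipR M G l / (-ipR M z l))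
        refine ⟨B, fun _ => ?_⟩
        exact (div_le_iff₀ (by linarith)).1 hB
      · exact ⟨0, fun h => absurd h hl⟩
    choose B hB using h3
    refine ⟨∑ l, B l, fun l hl => (hB l hl).trans ?_⟩
    apply mul_le_mul_of_nonneg_right _ (by linarith)
    exact_mod_cast Finset.single_le_sum (fun k _ => Nat.zero_le (B k)) (Finset.mem_univ l)
  refine ⟨B + 3, fun n hn => ?_⟩
  have hm1 : 1 ≤ m := hZ.hm
  have hnm : (B : ℝ) + 3 ≤ (n : ℝ) * m := by
    have h3 : (B + 3) * 1 ≤ n * m := Nat.mul_le_mul hn hm1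
    have h4 : ((B + 3 : ℕ) : ℝ) ≤ ((n * m : ℕ) : ℝ) := by
      have : B + 3 ≤ n * m := by omega
      exact_mod_cast this
    push_cast at h4
    exact h4
  set W : I → ℝ := ((n : ℝ) * m - 1 - ε) • z + t • G with hWd
  have hWv : ∀ l, W l = (n : ℝ) * m * z l - z l - ε * z l + t * G l := fun l => by
    simp only [hWd, Pi.add_apply, Pi.smul_apply, smul_eq_mul]; ring
  have hWip : ∀ l, ipR M W l = ((n : ℝ) * m - 1 - ε) * ipR M z l + t * ipR M G l := fun l => by
    rw [hWd, ipR_add, ipR_smul, ipR_smul]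
  have hBnn : (0 : ℝ) ≤ B := Nat.cast_nonneg _
  have hWa : ∀ l, ipR M W l ≤ 0 := by
    intro l
    rw [hWip]
    rcases lt_or_eq_of_le (hZ.anti l) with h | h
    · have h3 := hB l h
      have h4 : (B : ℝ) * (-ipR M z l) ≤ ((n : ℝ) * m - 1 - ε) * (-ipR M z l) :=
        mul_le_mul_of_nonneg_right (by linarith) (by linarith)
      linarith
    · rw [h, mul_zero, zero_add]
      exact mul_nonpos_of_nonneg_of_nonpos ht0.le (hGΓ l h)
  have hGnn : ∀ l, 0 ≤ G l := fun l => by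
    by_cases hl : l ∈ Γ
    · exact (hGpos l hl).le
    · rw [hG0 l hl]
  have hWpos : ∀ l, 0 < W l := fun l => by
    have h3 : 0 < ((n : ℝ) * m - 1 - ε) * z l := mul_pos (by linarith) (hZ.pos l)
    have h4 := mul_nonneg ht0.le (hGnn l)
    simp only [hWd, Pi.add_apply, Pi.smul_apply, smul_eq_mul]
    linarith
  have hW0 : W ≠ 0 := by
    intro h
    have h3 := hWpos l₀
    rw [h] at h3
    exact lt_irrefl _ h3
  obtain ⟨r, hr⟩ := exists_rank hM.toOModel0 (hM.nc hWa hW0)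
  -- v
  set v : I → ℝ := fun l => W l - ((n * Z l - bb l : ℤ) : ℝ) with hv
  have hvv : ∀ l, v l = -(z l - bb l) - ε * z l + t * G l := by
    intro l
    simp only [hv]
    rw [hWv]
    push_cast
    rw [hZ.int]; ring
  have hvle : ∀ l, v l ≤ 0 := by
    intro l
    rw [hvv]
    by_cases hl : l ∈ Γ
    · have h3 : t ≤ (z l - bb l + ε * z l) / G l := hmin l hl
      have h4 := (le_div_iff₀ (hGpos l hl)).1 h3
      linarith
    · rw [hG0 l hl, mul_zero]
      have := mul_pos hε0 (hZ.pos l)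
      linarith [hge l]
  have hv0 : v l₀ = 0 := by
    rw [hvv, ht, div_mul_cancel₀ _ (hGpos l₀ hl₀).ne']
    ring
  have hWint : ∀ l, W l = ⌊W l⌋ ↔ v l = ⌊v l⌋ := by
    intro l
    have h3 : ⌊v l⌋ = ⌊W l⌋ - (n * Z l - bb l) := by
      simp only [hv, Int.floor_sub_intCast]
    rw [h3]
    simp only [hv]
    push_cast
    constructor
    · intro h; linarith
    · intro h; linarith
  -- T₀
  set T₀ : Finset I := univ.filter (fun l => v l = 0) with hT₀
  have hT₀m : ∀ l, l ∈ T₀ ↔ v l = 0 := by intro l; simp [hT₀]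
  obtain ⟨j, hjT₀, hjmax⟩ := Finset.exists_max_image T₀ r ⟨l₀, (hT₀m l₀).2 hv0⟩
  have hvj : v j = 0 := (hT₀m j).1 hjT₀
  have hjΓ : j ∈ Γ := by
    by_contra h
    have h3 := hvv j
    rw [hvj, hG0 j h, mul_zero] at h3
    have := mul_pos hε0 (hZ.pos j)
    linarith [hge j]
  set S : Finset I := (TT W).filter (fun l => r j < r l) with hS
  have hSmem : ∀ l, l ∈ S ↔ (W l = ⌊W l⌋ ∧ r j < r l) := by
    intro l; simp only [hS, Finset.mem_filter, mem_TT]
  have hadm : Adm W r S := by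
    constructor
    · intro l hl; exact ((hSmem l).1 hl).1
    · intro l hl i hi hiS
      have h3 : ¬ r j < r i := fun h => hiS ((hSmem i).2 ⟨hi, h⟩)
      have := ((hSmem l).1 hl).2
      omega
  have hjint : W j = ⌊W j⌋ := by
    rw [hWint, hvj]; simp
  have hjS : j ∉ S := fun h => lt_irrefl _ ((hSmem j).1 h).2
  have hmax : ∀ i, W i = ⌊W i⌋ → i ∉ S → r i ≤ r j := by
    intro i hi hiS
    have : ¬ r j < r i := fun h => hiS ((hSmem i).2 ⟨hi, h⟩)
    omega
  obtain ⟨hd, he⟩ := exact_step hM h1 h2 hWa hW0 hr hadm hjint hjS hmax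
  -- the values of D
  have hDl : ∀ l, pre K W S l = n * Z l + ⌈v l⌉ + (if l ∈ S then 1 else 0) := by
    intro l
    have h3 : ⌈v l⌉ = ⌈W l⌉ - (n * Z l - bb l) := by
      simp only [hv, Int.ceil_sub_intCast]
    simp only [pre, h3, hbb]
    ring
  have hle : ∀ l, pre K W S l ≤ n * Z l := by
    intro l
    rw [hDl]
    have h3 : ⌈v l⌉ ≤ 0 := by rw [Int.ceil_le]; exact_mod_cast hvle l
    by_cases hl : l ∈ S
    · rw [if_pos hl]
      have h4 : v l = ⌊v l⌋ := (hWint l).1 ((hSmem l).1 hl).1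
      have h5 : v l ≠ 0 := by
        intro h
        have := hjmax l ((hT₀m l).2 h)
        have := ((hSmem l).1 hl).2
        omega
      have h6 : ⌈v l⌉ = ⌊v l⌋ := by
        rw [Int.ceil_eq_iff]; exact ⟨by linarith, h4.le⟩
      have h7 : ⌊v l⌋ ≠ 0 := by
        intro h
        rw [h] at h4
        exact h5 (by simpa using h4)
      omega
    · rw [if_neg hl]; omega
  have hDj : pre K W S j = n * Z j := by
    rw [hDl, if_neg hjS, hvj]; simp
  have hdeg0 : 0 ≤ deg (pre K W S) j := by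
    have h3 := hZ.cart n (pre K W S) j hle hDj
    rw [ipR_toR_Z hZ, hΓ0 j hjΓ, mul_zero, mul_zero, neg_zero] at h3
    exact_mod_cast h3
  refine ⟨j, hjΓ, pre K W S, ?_, hle, hDj, hdeg0, hd, he, ?_⟩
  · intro l hl
    have h3 : z l = bb l := hZ.compl l hl
    have hlΓ : l ∉ Γ := fun h => by rw [hΓ0 l h] at hl; exact lt_irrefl _ hl
    have h4 : v l = -(ε * z l) := by
      rw [hvv, hG0 l hlΓ, h3]; ring
    have h5 : 0 < ε * z l := mul_pos hε0 (hZ.pos l)
    have h6 := hεz l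
    have h7 : ⌈v l⌉ = 0 := by
      rw [Int.ceil_eq_iff, h4]
      constructor
      · push_cast; linarith
      · push_cast; linarith
    have h8 : l ∉ S := by
      intro h
      have h9 : v l = ⌊v l⌋ := (hWint l).1 ((hSmem l).1 h).1
      have h10 : ⌊v l⌋ = -1 := by
        rw [Int.floor_eq_iff, h4]
        constructor
        · push_cast; linarith
        · push_cast; linarith
      rw [h10, h4] at h9
      push_cast at h9
      linarith
    rw [hDl, h7, if_neg h8]; ring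
  · have := hg j
    omega

end Vale.Agent.P298.H471
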